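import Mathlib
import Crest.Prelude.Def_BernoulliConv

/-!
Algebra of a quartic Salem number: integrality of the power sums.
-/

set_option autoImplicit false

namespace Crest.Agent.R104

open Polynomial Crest.AnalysisR
open scoped ComplexConjugate

lemma salem_coeffs {β : ℝ} (h : IsQuarticSalem β) :
    ∃ A B : ℤ, (∀ z : ℂ, z ^ 4 - A * z ^ 3 + B * z ^ 2 - A * z + 1 = 0 →
        z = (β : ℂ) ∨ z = ((β⁻¹ : ℝ) : ℂ) ∨ ‖z‖ = 1) ∧
      β ^ 4 - A * β ^ 3 + B * β ^ 2 - A * β + 1 = 0 ∧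
      2 * β ^ 2 - A * β + 2 ≠ 0 := by
  obtain ⟨h1, hint, hdeg, hinv, hroots⟩ := h
  have hβ0 : β ≠ 0 := by positivity
  have hli : ∀ q0 q1 q2 q3 : ℚ, (q0 : ℝ) + q1 * β + q2 * β ^ 2 + q3 * β ^ 3 = 0 →
      q0 = 0 ∧ q1 = 0 ∧ q2 = 0 ∧ q3 = 0 := by
    intro q0 q1 q2 q3 hq
    have hl := linearIndependent_pow (K := ℚ) β
    rw [hdeg] at hl
    have := Fintype.linearIndependent_iff.1 hl ![q0, q1, q2, q3] (by
      simp [Fin.sum_univ_four, Algebra.smul_def]
      linarith)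
    exact ⟨this 0, this 1, this 2, this 3⟩
  have hmap : minpoly ℚ β = (minpoly ℤ β).map (algebraMap ℤ ℚ) :=
    minpoly.isIntegrallyClosed_eq_field_fractions' ℚ hint
  have hmonic : (minpoly ℤ β).Monic := minpoly.monic hint
  have hdegZ : (minpoly ℤ β).natDegree = 4 := by
    rw [hmap, hmonic.natDegree_map] at hdeg; exact hdeg
  set p := minpoly ℤ β with hp
  have hc4 : p.coeff 4 = 1 := by rw [← hdegZ]; exact hmonic.coeff_natDegree
  have evR : ∀ x : ℝ, aeval x (minpoly ℚ β) =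
      p.coeff 0 + p.coeff 1 * x + p.coeff 2 * x ^ 2 + p.coeff 3 * x ^ 3 + x ^ 4 := by
    intro x
    rw [hmap, aeval_map_algebraMap, aeval_eq_sum_range, hdegZ]
    simp [Finset.sum_range_succ, hc4]
  have evC : ∀ x : ℂ, aeval x (minpoly ℚ β) =
      p.coeff 0 + p.coeff 1 * x + p.coeff 2 * x ^ 2 + p.coeff 3 * x ^ 3 + x ^ 4 := by
    intro x
    rw [hmap, aeval_map_algebraMap, aeval_eq_sum_range, hdegZ]
    simp [Finset.sum_range_succ, hc4]
  have e1 := evR β
  rw [minpoly.aeval] at e1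
  have e2 := evR β⁻¹
  rw [hinv] at e2
  generalize p.coeff 0 = c0 at *
  generalize p.coeff 1 = c1 at *
  generalize p.coeff 2 = c2 at *
  generalize p.coeff 3 = c3 at *
  have e2' : (c0 : ℝ) * β ^ 4 + c1 * β ^ 3 + c2 * β ^ 2 + c3 * β + 1 = 0 := by
    have : (c0 : ℝ) * β ^ 4 + c1 * β ^ 3 + c2 * β ^ 2 + c3 * β + 1 =
        β ^ 4 * (c0 + c1 * β⁻¹ + c2 * β⁻¹ ^ 2 + c3 * β⁻¹ ^ 3 + β⁻¹ ^ 4) := by
      field_simp
    rw [this, ← e2, mul_zero]
  obtain ⟨k0, k1, k2, k3⟩ := hli (1 - c0 * c0) (c3 - c0 * c1) (c2 - c0 * c2) (c1 - c0 * c3) (by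
    push_cast
    linear_combination e2' + (c0 : ℝ) * e1)
  have k0' : c0 * c0 = 1 := by exact_mod_cast (sub_eq_zero.1 k0).symm
  have k1' : c3 = c0 * c1 := by exact_mod_cast (sub_eq_zero.1 k1)
  have k2' : c2 = c0 * c2 := by exact_mod_cast (sub_eq_zero.1 k2)
  have hc0 : c0 = 1 := by
    rcases Int.eq_one_or_neg_one_of_mul_eq_one k0' with h | h
    · exact h
    · exfalso
      subst h
      have h2 : c2 = 0 := by omega
      have h3 : c3 = -c1 := by omega
      subst h2 h3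
      have : (β ^ 2 - 1) * (β ^ 2 - c1 * β + 1) = 0 := by
        push_cast at e1
        linear_combination -e1
      rcases mul_eq_zero.1 this with h | h
      · nlinarith
      · have := (hli 1 (-c1) 1 0 (by push_cast; linear_combination h)).1
        exact one_ne_zero this
  subst hc0
  have h3 : c3 = c1 := by omega
  subst h3
  refine ⟨-c3, c2, fun z hz => hroots z ?_, ?_, fun h => ?_⟩
  · rw [evC]; push_cast at hz ⊢; linear_combination hz
  · push_cast at e1 ⊢; linear_combination -e1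
  · have := (hli 2 c3 2 0 (by push_cast at h ⊢; linear_combination h)).1
    exact two_ne_zero this

lemma salem_structure {β : ℝ} (h : IsQuarticSalem β) :
    ∃ α : ℂ, ‖α‖ = 1 ∧ (∀ j : ℤ, ∃ n : ℤ, β ^ j + β ^ (-j) + 2 * (α ^ j).re = n) ∧
      IsIntegral ℤ β⁻¹ := by
  obtain ⟨A, B, hroots, hβ, hne⟩ := salem_coeffs h
  have h1 : 1 < β := h.1
  have hβ0 : β ≠ 0 := by positivity
  set y : ℝ := β + β⁻¹ with hy
  set y' : ℝ := A - y with hy'
  have hyy : y * y - A * y + (B - 2) = 0 := by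
    have : y * y - A * y + (B - 2) = β⁻¹ ^ 2 * (β ^ 4 - A * β ^ 3 + B * β ^ 2 - A * β + 1) := by
      rw [hy]; field_simp; ring
    rw [this, hβ, mul_zero]
  obtain ⟨α, hα⟩ : ∃ α : ℂ, 1 * (α * α) + (-(y' : ℂ)) * α + 1 = 0 :=
    exists_quadratic_eq_zero one_ne_zero (IsAlgClosed.exists_eq_mul_self _)
  have hα0 : α ≠ 0 := by rintro rfl; simp at hα
  have hyyC : (y : ℂ) * y - A * y + (B - 2) = 0 := by exact_mod_cast hyy
  have hy'C : (y' : ℂ) = A - y := by rw [hy']; push_cast; ring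
  have hroot : α ^ 4 - A * α ^ 3 + B * α ^ 2 - A * α + 1 = 0 := by
    rw [hy'C] at hα
    linear_combination (α ^ 2 - y * α + 1) * hα + α ^ 2 * hyyC
  have hnorm : ‖α‖ = 1 := by
    rcases hroots α hroot with h | h | h
    · exfalso; apply hne
      rw [h] at hα
      have : 1 * (β * β) + (-y') * β + 1 = 0 := by exact_mod_cast hα
      rw [hy', hy] at this
      have e : β⁻¹ * β = 1 := inv_mul_cancel₀ hβ0
      linear_combination this - e
    · exfalso; apply hne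
      rw [h] at hα
      have : 1 * (β⁻¹ * β⁻¹) + (-y') * β⁻¹ + 1 = 0 := by exact_mod_cast hα
      rw [hy', hy] at this
      have e : β⁻¹ * β = 1 := inv_mul_cancel₀ hβ0
      linear_combination β ^ 2 * this + (-(2 * β⁻¹ * β) - 2 + A * β - β ^ 2) * e
    · exact h
  have hconj : α⁻¹ = conj α := by
    rw [Complex.inv_def, Complex.normSq_eq_norm_sq, hnorm]; simp
  have hsum : α + α⁻¹ = y' := by
    field_simp; linear_combination hα
  -- the recursion
  let u : ℕ → ℝ := fun n => β ^ n + β⁻¹ ^ n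
  let v : ℕ → ℝ := fun n => 2 * (α ^ n).re
  have hv : ∀ n, (v n : ℂ) = α ^ n + α⁻¹ ^ n := by
    intro n
    rw [hconj, ← map_pow, Complex.add_conj]
  have hu2 : ∀ n, u (n + 2) = y * u (n + 1) - u n := by
    intro n; simp only [u, hy]
    have e : β * β⁻¹ = 1 := mul_inv_cancel₀ hβ0
    linear_combination (-(β ^ n + β⁻¹ ^ n)) * e
  have hv2 : ∀ n, v (n + 2) = y' * v (n + 1) - v n := by
    intro n
    have : (v (n + 2) : ℂ) = y' * v (n + 1) - v n := by
      rw [hv, hv, hv, ← hsum]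
      have e : α * α⁻¹ = 1 := mul_inv_cancel₀ hα0
      linear_combination (-(α ^ n + α⁻¹ ^ n)) * e
    exact_mod_cast this
  have hu0 : u 0 = 2 := by simp [u]; norm_num
  have hv0 : v 0 = 2 := by simp [v]
  have hu1 : u 1 = y := by simp [u, hy]
  have hv1 : v 1 = y' := by
    have : (v 1 : ℂ) = y' := by rw [hv, ← hsum]; simp
    exact_mod_cast this
  have hyy' : y' * y' - A * y' + (B - 2) = 0 := by
    rw [hy']; linear_combination hyy
  have key : ∀ n : ℕ, (∃ a : ℤ, u n + v n = a) ∧ (∃ b : ℤ, y * u n + y' * v n = b) := by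
    intro n
    induction n using Nat.twoStepInduction with
    | zero =>
      refine ⟨⟨4, by rw [hu0, hv0]; norm_num⟩, ⟨2 * A, ?_⟩⟩
      rw [hu0, hv0, hy']; push_cast; ring
    | one =>
      refine ⟨⟨A, by rw [hu1, hv1, hy']; ring⟩, ⟨A * A - 2 * (B - 2), ?_⟩⟩
      rw [hu1, hv1]; push_cast
      linear_combination hyy + hyy' + (A : ℝ) * hy'
    | more n ih1 ih2 =>
      obtain ⟨⟨a0, ha0⟩, ⟨b0, hb0⟩⟩ := ih1
      obtain ⟨⟨a1, ha1⟩, ⟨b1, hb1⟩⟩ := ih2
      refine ⟨⟨b1 - a0, ?_⟩, ⟨A * b1 - (B - 2) * a1 - b0, ?_⟩⟩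
      · rw [hu2, hv2]; push_cast; linear_combination hb1 - ha0
      · rw [hu2, hv2]; push_cast
        linear_combination (A : ℝ) * hb1 - (B - 2 : ℝ) * ha1 - hb0 + u (n + 1) * hyy +
          v (n + 1) * hyy'
  refine ⟨α, hnorm, fun j => ?_, ?_⟩
  · obtain ⟨n, rfl | rfl⟩ := Int.eq_nat_or_neg j
    · obtain ⟨a, ha⟩ := (key n).1
      refine ⟨a, ?_⟩
      rw [← ha]; simp [u, v]
    · obtain ⟨a, ha⟩ := (key n).1
      refine ⟨a, ?_⟩
      rw [← ha]
      have : (α ^ (-(n : ℤ))).re = (α ^ n).re := by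
        rw [zpow_neg, zpow_natCast, ← inv_pow, hconj, ← map_pow, Complex.conj_re]
      rw [this]
      simp [u, v]; ring
  · have hint : IsIntegral ℤ β := h.2.1
    have e : β⁻¹ = -(β ^ 3) + A * β ^ 2 - B * β + A := by
      field_simp; linear_combination hβ
    rw [e]
    have hA : IsIntegral ℤ (A : ℝ) := isIntegral_algebraMap (x := A)
    have hB : IsIntegral ℤ (B : ℝ) := isIntegral_algebraMap (x := B)
    exact (((hint.pow 3).neg.add (hA.mul (hint.pow 2))).sub (hB.mul hint)).add hA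

/-- an algebraic integer is not a zero of `cos (π ·)`. -/
lemma cos_ne_zero_of_isIntegral {x : ℝ} (hx : IsIntegral ℤ x) : Real.cos (Real.pi * x) ≠ 0 := by
  intro h
  obtain ⟨k, hk⟩ := Real.cos_eq_zero_iff.1 h
  have hx' : x = (((2 * k + 1 : ℤ) : ℚ) / 2 : ℚ) := by
    have := Real.pi_pos
    push_cast
    have h2 : Real.pi * x = Real.pi * ((2 * k + 1) / 2) := by rw [hk]; ring
    exact mul_left_cancel₀ this.ne' h2
  rw [hx'] at hx
  have h2 : IsIntegral ℤ (((2 * k + 1 : ℤ) : ℚ) / 2 : ℚ) :=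
    (isIntegral_algebraMap_iff (algebraMap ℚ ℝ).injective).1 hx
  obtain ⟨m, hm⟩ := IsIntegrallyClosed.isIntegral_iff.1 h2
  have : (m : ℚ) * 2 = ((2 * k + 1 : ℤ) : ℚ) := by
    have : (m : ℚ) = ((2 * k + 1 : ℤ) : ℚ) / 2 := hm
    rw [this]; ring
  have : m * 2 = 2 * k + 1 := by exact_mod_cast this
  omega

end Crest.Agent.R104
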