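import Mathlib
import Crest.Prelude.Def_BernoulliConv

/-!
The characteristic function of a Bernoulli convolution as a limit of finite cosine products.
-/

set_option autoImplicit false

namespace Crest.Agent.R104

open MeasureTheory Complex Finset Filter Topology ProbabilityTheory Crest.AnalysisR
open scoped ComplexConjugate ENNReal

instance isProb_fairCoin : IsProbabilityMeasure fairCoin := by
  constructor
  simp [fairCoin, ENNReal.inv_two_add_inv_two]

lemma integral_fairCoin (f : Bool → ℂ) : ∫ b, f b ∂fairCoin = (f true + f false) / 2 := by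
  unfold fairCoin
  rw [integral_add_measure, integral_smul_measure, integral_smul_measure, integral_dirac,
    integral_dirac]
  · simp; ring
  · exact Integrable.smul_measure (Integrable.of_finite) (by simp)
  · exact Integrable.smul_measure (Integrable.of_finite) (by simp)

lemma tendsto_partial {c : ℝ} (h0 : 0 ≤ c) (h1 : c < 1) (ε : ℕ → Bool) :
    Tendsto (fun K => ∑ n ∈ range K, (if ε n then c ^ n else -(c ^ n))) atTop
      (𝓝 (signedPowerSum c ε)) := by
  apply HasSum.tendsto_sum_nat
  apply Summable.hasSum
  refine Summable.of_norm_bounded (summable_geometric_of_lt_one h0 h1) fun n => ?_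
  split_ifs <;> simp [abs_of_nonneg h0]

lemma measurable_sps {c : ℝ} (h0 : 0 ≤ c) (h1 : c < 1) : Measurable (signedPowerSum c) := by
  refine measurable_of_tendsto_metrizable
    (f := fun K ε => ∑ n ∈ range K, (if ε n then c ^ n else -(c ^ n))) (fun K => ?_)
    (tendsto_pi_nhds.2 fun ε => tendsto_partial h0 h1 ε)
  refine Finset.measurable_sum _ fun n _ => ?_
  exact (measurable_of_finite (fun b : Bool => if b then c ^ n else -(c ^ n))).comp
    (measurable_pi_apply n)

lemma isProb_bc {c : ℝ} (h0 : 0 ≤ c) (h1 : c < 1) :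
    IsProbabilityMeasure (bernoulliConvolution c) :=
  Measure.isProbabilityMeasure_map (measurable_sps h0 h1).aemeasurable

lemma tendsto_charFun {c : ℝ} (h0 : 0 ≤ c) (h1 : c < 1) (ξ : ℝ) :
    Tendsto (fun K => ((∏ m ∈ range K, Real.cos (ξ * c ^ m) : ℝ) : ℂ)) atTop
      (𝓝 (charFun (bernoulliConvolution c) ξ)) := by
  rw [charFun_apply_real, bernoulliConvolution,
    integral_map (measurable_sps h0 h1).aemeasurable (by fun_prop)]
  set P := Measure.infinitePi (fun _ : ℕ => fairCoin) with hP
  have hK : ∀ K, ((∏ m ∈ range K, Real.cos (ξ * c ^ m) : ℝ) : ℂ) =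
      ∫ ε, cexp (ξ * ((∑ n ∈ range K, (if ε n then c ^ n else -(c ^ n)) : ℝ) : ℂ) * I) ∂P := by
    intro K
    let g : ℕ → Bool → ℂ := fun n b => cexp (ξ * ((if b then c ^ n else -(c ^ n) : ℝ) : ℂ) * I)
    have hind : iIndepFun (fun (n : ℕ) (ε : ℕ → Bool) => g n (ε n)) P :=
      iIndepFun_infinitePi (X := g) (fun n => measurable_of_finite _)
    have hind' : iIndepFun (fun (n : Fin K) (ε : ℕ → Bool) => g n (ε n)) P :=
      hind.precomp (g := fun n : Fin K => (n : ℕ)) Fin.val_injective
    have hmeas : ∀ n : ℕ, Measurable (fun ε : ℕ → Bool => g n (ε n)) := fun n =>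
      (measurable_of_finite (g n)).comp (measurable_pi_apply n)
    have e1 := hind'.integral_fun_prod_eq_prod_integral
      (fun n => (hmeas n).aestronglyMeasurable)
    have e2 : ∀ ε : ℕ → Bool,
        cexp (ξ * ((∑ n ∈ range K, (if ε n then c ^ n else -(c ^ n)) : ℝ) : ℂ) * I) =
        ∏ n : Fin K, g n (ε n) := by
      intro ε
      rw [Fin.prod_univ_eq_prod_range (fun n => g n (ε n)) K, ofReal_sum, Finset.mul_sum,
        Finset.sum_mul, exp_sum]
    simp_rw [e2]
    rw [e1, Fin.prod_univ_eq_prod_range (fun n => ∫ ε, g n (ε n) ∂P) K, ofReal_prod]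
    refine Finset.prod_congr rfl fun n _ => ?_
    have e3 : ∫ ε, g n (ε n) ∂P = ∫ b, g n b ∂fairCoin := by
      rw [← Measure.infinitePi_map_eval (fun _ : ℕ => fairCoin) n,
        integral_map (measurable_pi_apply n).aemeasurable
          (measurable_of_finite _).aestronglyMeasurable]
    rw [e3, integral_fairCoin]
    simp only [g, if_true, Bool.false_eq_true, if_false]
    rw [ofReal_cos, Complex.cos]
    push_cast
    congr 2 <;> congr 1 <;> ring
  simp_rw [hK]
  refine tendsto_integral_of_dominated_convergence (fun _ => 1) (fun K => ?_)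
    (integrable_const _) (fun K => ae_of_all _ fun ε => ?_) (ae_of_all _ fun ε => ?_)
  · refine Measurable.aestronglyMeasurable ?_
    have : Measurable (fun ε : ℕ → Bool => ∑ n ∈ range K, (if ε n then c ^ n else -(c ^ n))) := by
      refine Finset.measurable_sum _ fun n _ => ?_
      exact (measurable_of_finite (fun b : Bool => if b then c ^ n else -(c ^ n))).comp
        (measurable_pi_apply n)
    fun_prop
  · rw [← ofReal_mul, norm_exp_ofReal_mul_I]
  · have hc : Continuous (fun x : ℝ => cexp (ξ * x * I)) := by fun_prop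
    exact (hc.tendsto _).comp (tendsto_partial h0 h1 ε)

end Crest.Agent.R104
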