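import Mathlib

/-!
A Fourier-side criterion for mutual singularity of two probability measures on the line.
-/

set_option autoImplicit false

namespace Crest.Agent.R104

open MeasureTheory Complex Finset
open scoped ComplexConjugate

/-- second moment of a trigonometric sum, centred by constants `κ n`. -/
lemma integral_normSq_sum_le (P : Measure ℝ) [IsProbabilityMeasure P] {ι : Type*}
    (s : Finset ι) (ξ : ι → ℝ) (c κ : ι → ℂ) (hc : ∀ n, ‖c n‖ ≤ 1) :
    ∫ x, ‖∑ n ∈ s, c n * (cexp (ξ n * x * I) - κ n)‖ ^ 2 ∂P ≤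
      ∑ n ∈ s, ∑ m ∈ s, ‖charFun P (ξ n - ξ m) - charFun P (ξ n) * conj (κ m)
        - κ n * conj (charFun P (ξ m)) + κ n * conj (κ m)‖ := by
  have hint : ∀ t : ℝ, Integrable (fun x : ℝ => cexp (t * x * I)) P := by
    intro t
    refine Integrable.of_bound (C := 1) (by fun_prop) (ae_of_all _ fun x => ?_)
    rw [← ofReal_mul, norm_exp_ofReal_mul_I]
  have key : ∀ n m, ∫ x, (cexp (ξ n * x * I) - κ n) * conj (cexp (ξ m * x * I) - κ m) ∂P =
      charFun P (ξ n - ξ m) - charFun P (ξ n) * conj (κ m)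
        - κ n * conj (charFun P (ξ m)) + κ n * conj (κ m) := by
    intro n m
    have h1 : ∀ x : ℝ, (cexp (ξ n * x * I) - κ n) * conj (cexp (ξ m * x * I) - κ m) =
        cexp (((ξ n - ξ m : ℝ) : ℂ) * x * I) - cexp (ξ n * x * I) * conj (κ m)
          - κ n * cexp (((-ξ m : ℝ) : ℂ) * x * I) + κ n * conj (κ m) := by
      intro x
      have e1 : conj (cexp (ξ m * x * I)) = cexp (((-ξ m : ℝ) : ℂ) * x * I) := by
        rw [← exp_conj]; congr 1; simp
      have e2 : cexp (((ξ n - ξ m : ℝ) : ℂ) * x * I) =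
          cexp (ξ n * x * I) * cexp (((-ξ m : ℝ) : ℂ) * x * I) := by
        rw [← exp_add]; congr 1; push_cast; ring
      rw [map_sub, e1, e2]; ring
    simp_rw [h1]
    rw [integral_add, integral_sub, integral_sub, integral_mul_const, integral_const_mul,
      ← charFun_apply_real, ← charFun_apply_real, ← charFun_apply_real, charFun_neg]
    · simp
    · exact hint _
    · exact (hint _).mul_const _
    · exact (hint _).sub ((hint _).mul_const _)
    · exact (hint _).const_mul _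
    · exact ((hint _).sub ((hint _).mul_const _)).sub ((hint _).const_mul _)
    · exact integrable_const _
  have hint2 : ∀ n m, Integrable (fun x : ℝ =>
      (cexp (ξ n * x * I) - κ n) * conj (cexp (ξ m * x * I) - κ m)) P := by
    intro n m
    refine Integrable.of_bound (C := (1 + ‖κ n‖) * (1 + ‖κ m‖)) (by fun_prop)
      (ae_of_all _ fun x => ?_)
    rw [norm_mul, RCLike.norm_conj]
    have h : ∀ k, ‖cexp (ξ k * x * I) - κ k‖ ≤ 1 + ‖κ k‖ := fun k => by
      refine (norm_sub_le _ _).trans ?_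
      rw [← ofReal_mul, norm_exp_ofReal_mul_I]
    exact mul_le_mul (h n) (h m) (norm_nonneg _) (by positivity)
  have h2 : ∀ x : ℝ, (((‖∑ n ∈ s, c n * (cexp (ξ n * x * I) - κ n)‖ ^ 2 : ℝ)) : ℂ) =
      ∑ n ∈ s, ∑ m ∈ s, c n * conj (c m) *
        ((cexp (ξ n * x * I) - κ n) * conj (cexp (ξ m * x * I) - κ m)) := by
    intro x
    rw [← Complex.normSq_eq_norm_sq, ← Complex.mul_conj, map_sum, Finset.sum_mul_sum]
    refine Finset.sum_congr rfl fun n _ => Finset.sum_congr rfl fun m _ => ?_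
    rw [map_mul]; ring
  have h3 : ((∫ x, ‖∑ n ∈ s, c n * (cexp (ξ n * x * I) - κ n)‖ ^ 2 ∂P : ℝ) : ℂ) =
      ∑ n ∈ s, ∑ m ∈ s, c n * conj (c m) * (charFun P (ξ n - ξ m) - charFun P (ξ n) * conj (κ m)
        - κ n * conj (charFun P (ξ m)) + κ n * conj (κ m)) := by
    rw [← integral_complex_ofReal]
    simp_rw [h2]
    rw [integral_finsetSum _ fun n _ =>
      integrable_finsetSum _ fun m _ => (hint2 n m).const_mul _]
    refine Finset.sum_congr rfl fun n _ => ?_
    rw [integral_finsetSum _ fun m _ => (hint2 n m).const_mul _]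
    refine Finset.sum_congr rfl fun m _ => ?_
    rw [integral_const_mul, key]
  have h4 : (∫ x, ‖∑ n ∈ s, c n * (cexp (ξ n * x * I) - κ n)‖ ^ 2 ∂P : ℝ) ≤
      ‖((∫ x, ‖∑ n ∈ s, c n * (cexp (ξ n * x * I) - κ n)‖ ^ 2 ∂P : ℝ) : ℂ)‖ := by
    rw [Complex.norm_real]; exact le_abs_self _
  refine h4.trans ?_
  rw [h3]
  refine (norm_sum_le _ _).trans (Finset.sum_le_sum fun n _ => ?_)
  refine (norm_sum_le _ _).trans (Finset.sum_le_sum fun m _ => ?_)
  rw [norm_mul, norm_mul, RCLike.norm_conj]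
  have : ‖c n‖ * ‖c m‖ ≤ 1 := mul_le_one₀ (hc n) (norm_nonneg _) (hc m)
  exact mul_le_of_le_one_left (norm_nonneg _) this

/-- The criterion. -/
theorem mutuallySingular_of_charFun (μ γ : Measure ℝ) [IsProbabilityMeasure μ]
    [IsProbabilityMeasure γ]
    (h : ∀ ε : ℝ, 0 < ε → ∃ (s : Finset ℤ) (ξ : ℤ → ℝ) (w : ℝ), 0 < w ∧ s.Nonempty ∧
      (∀ n ∈ s, w ≤ ‖charFun μ (ξ n)‖) ∧
      (∑ n ∈ s, ∑ m ∈ s, ‖charFun μ (ξ n - ξ m) - charFun μ (ξ n) * conj (charFun μ (ξ m))‖
        ≤ ε * (s.card * w) ^ 2) ∧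
      (∑ n ∈ s, ∑ m ∈ s, ‖charFun γ (ξ n - ξ m)‖ ≤ ε * (s.card * w) ^ 2)) :
    μ.MutuallySingular γ := by
  apply Measure.mutuallySingular_of_disjoint
  intro ρ hρμ hργ
  have hfin : IsFiniteMeasure ρ := isFiniteMeasure_of_le μ hρμ
  have main : ∀ ε : ℝ, 0 < ε → ρ.real Set.univ ≤ 4 * ε := by
    intro ε hε
    obtain ⟨s, ξ, w, hw, hs, h1, h2, h3⟩ := h ε hε
    set c : ℤ → ℂ := fun n => conj (charFun μ (ξ n)) / ‖charFun μ (ξ n)‖ with hc
    have hc1 : ∀ n, ‖c n‖ ≤ 1 := by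
      intro n
      simp only [hc, norm_div, RCLike.norm_conj, Complex.norm_real, norm_norm]
      exact div_self_le_one _
    have hm : ∑ n ∈ s, c n * charFun μ (ξ n) = ((∑ n ∈ s, ‖charFun μ (ξ n)‖ : ℝ) : ℂ) := by
      push_cast
      refine Finset.sum_congr rfl fun n hn => ?_
      have hne : (‖charFun μ (ξ n)‖ : ℂ) ≠ 0 := by
        exact_mod_cast (hw.trans_le (h1 n hn)).ne'
      simp only [hc]
      field_simp
      rw [mul_comm, Complex.mul_conj, Complex.normSq_eq_norm_sq]; push_cast; ring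
    have hM : s.card * w ≤ ∑ n ∈ s, ‖charFun μ (ξ n)‖ := by
      have := Finset.card_nsmul_le_sum s (fun n => ‖charFun μ (ξ n)‖) w h1
      simpa using this
    have hpos : 0 < (s.card : ℝ) * w := by
      have : 0 < (s.card : ℝ) := by exact_mod_cast hs.card_pos
      positivity
    have A := integral_normSq_sum_le μ s ξ c (fun n => charFun μ (ξ n)) hc1
    have B := integral_normSq_sum_le γ s ξ c (fun _ => 0) hc1
    simp only [map_zero, mul_zero, sub_zero, zero_mul, add_zero] at B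
    have A' : ∫ x, ‖∑ n ∈ s, c n * (cexp (ξ n * x * I) - charFun μ (ξ n))‖ ^ 2 ∂μ ≤
        ε * (s.card * w) ^ 2 := by
      refine A.trans (le_trans (le_of_eq ?_) h2)
      refine Finset.sum_congr rfl fun n _ => Finset.sum_congr rfl fun m _ => ?_
      congr 1; ring
    have B' := B.trans h3
    have hbd : ∀ (κ : ℤ → ℂ) (P : Measure ℝ) [IsFiniteMeasure P], Integrable
        (fun x : ℝ => ‖∑ n ∈ s, c n * (cexp (ξ n * x * I) - κ n)‖ ^ 2) P := by
      intro κ P _
      refine Integrable.of_bound (C := (∑ n ∈ s, (1 + ‖κ n‖)) ^ 2) (by fun_prop)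
        (ae_of_all _ fun x => ?_)
      rw [Real.norm_of_nonneg (by positivity)]
      refine pow_le_pow_left₀ (norm_nonneg _) ?_ 2
      refine (norm_sum_le _ _).trans (Finset.sum_le_sum fun n _ => ?_)
      rw [norm_mul]
      have h : ‖cexp (ξ n * x * I) - κ n‖ ≤ 1 + ‖κ n‖ := by
        refine (norm_sub_le _ _).trans ?_
        rw [← ofReal_mul, norm_exp_ofReal_mul_I]
      calc _ ≤ 1 * (1 + ‖κ n‖) := mul_le_mul (hc1 n) h (norm_nonneg _) zero_le_one
        _ = _ := one_mul _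
    have hbd0 : ∀ (P : Measure ℝ) [IsFiniteMeasure P], Integrable
        (fun x : ℝ => ‖∑ n ∈ s, c n * (cexp (ξ n * x * I))‖ ^ 2) P := by
      intro P _
      simpa using hbd (fun _ => 0) P
    have pt : ∀ x : ℝ, (s.card * w) ^ 2 ≤
        2 * ‖∑ n ∈ s, c n * (cexp (ξ n * x * I) - charFun μ (ξ n))‖ ^ 2 +
        2 * ‖∑ n ∈ s, c n * (cexp (ξ n * x * I))‖ ^ 2 := by
      intro x
      have e : ∑ n ∈ s, c n * charFun μ (ξ n) = ∑ n ∈ s, c n * (cexp (ξ n * x * I)) -
          ∑ n ∈ s, c n * (cexp (ξ n * x * I) - charFun μ (ξ n)) := by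
        rw [← Finset.sum_sub_distrib]; refine Finset.sum_congr rfl fun n _ => by ring
      have e2 : s.card * w ≤ ‖∑ n ∈ s, c n * (cexp (ξ n * x * I))‖ +
          ‖∑ n ∈ s, c n * (cexp (ξ n * x * I) - charFun μ (ξ n))‖ := by
        refine le_trans ?_ (norm_sub_le _ _)
        rw [← e, hm, Complex.norm_real]
        exact hM.trans (le_abs_self _)
      have e3 := pow_le_pow_left₀ hpos.le e2 2
      nlinarith [sq_nonneg (‖∑ n ∈ s, c n * (cexp (ξ n * x * I))‖ -
          ‖∑ n ∈ s, c n * (cexp (ξ n * x * I) - charFun μ (ξ n))‖)]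
    have I1 : ρ.real Set.univ * (s.card * w) ^ 2 ≤
        2 * ∫ x, ‖∑ n ∈ s, c n * (cexp (ξ n * x * I) - charFun μ (ξ n))‖ ^ 2 ∂ρ +
        2 * ∫ x, ‖∑ n ∈ s, c n * (cexp (ξ n * x * I))‖ ^ 2 ∂ρ := by
      rw [← integral_const_mul, ← integral_const_mul, ← integral_add
        ((hbd _ ρ).const_mul _) ((hbd0 ρ).const_mul _), ← smul_eq_mul, ← integral_const]
      exact integral_mono (integrable_const _)
        (((hbd _ ρ).const_mul _).add ((hbd0 ρ).const_mul _)) pt
    have I2 : ∫ x, ‖∑ n ∈ s, c n * (cexp (ξ n * x * I) - charFun μ (ξ n))‖ ^ 2 ∂ρ ≤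
        ∫ x, ‖∑ n ∈ s, c n * (cexp (ξ n * x * I) - charFun μ (ξ n))‖ ^ 2 ∂μ :=
      integral_mono_measure hρμ (ae_of_all _ fun x => by positivity) (hbd _ μ)
    have I3 : ∫ x, ‖∑ n ∈ s, c n * (cexp (ξ n * x * I))‖ ^ 2 ∂ρ ≤
        ∫ x, ‖∑ n ∈ s, c n * (cexp (ξ n * x * I))‖ ^ 2 ∂γ :=
      integral_mono_measure hργ (ae_of_all _ fun x => by positivity) (hbd0 γ)
    have I4 : ρ.real Set.univ * (s.card * w) ^ 2 ≤ (4 * ε) * (s.card * w) ^ 2 := by linarith
    exact le_of_mul_le_mul_right I4 (by positivity)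
  have h0 : ρ.real Set.univ = 0 := by
    refine le_antisymm ?_ measureReal_nonneg
    refine le_of_forall_pos_le_add fun ε hε => ?_
    have := main (ε / 4) (by positivity)
    linarith
  have : ρ = 0 := by
    rw [← Measure.measure_univ_eq_zero]
    exact (measureReal_eq_zero_iff (measure_ne_top _ _)).1 h0
  rw [this]; exact le_rfl

end Crest.Agent.R104
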