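import Crest.Agent.R104.State

/-!
Iteration of the construction: the centre component shrinks like a power `> 2` at each step while
the energy only doubles.
-/

set_option autoImplicit false

namespace Crest.Agent.R104

open Real Finset

/-- a state at level `M`. -/
def Lv (β : ℝ) (α : ℂ) (δ M E : ℝ) : Prop :=
  ∃ (T : ℕ) (a σ : ℝ) (z : ℂ), (T : ℝ) ≤ M ^ 3 ∧
    St β α T a σ z (M ^ 4)⁻¹ (δ + 24 * G β / M) E

variable {β : ℝ} {α : ℂ}

lemma Lv.finish (hβ : 1 < β) (hα : ‖α‖ = 1) {δ M M' E ε : ℝ} {T : ℕ} {a σ : ℝ} {z : ℂ}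
    (h : St β α T a σ z (M ^ 4)⁻¹ (δ + 24 * G β / M) E) {t s : ℕ} (hM : 1 ≤ M)
    (hMM : 2 * M ≤ M') (hs : M ≤ s) (hts : T + 2 * s ≤ t) (ht : 2 ≤ β ^ t)
    (hε : ‖α ^ t - 1‖ ≤ ε) (hζ : (M ^ 4)⁻¹ * ε ≤ (M' ^ 4)⁻¹) (hT : ((T + t : ℕ) : ℝ) ≤ M' ^ 3)
    (htM : (t : ℝ) ≤ 2 * M ^ 8) : Lv β α δ M' (2 * E + (80 * G β + 528)) := by
  have hG := one_le_G hβ
  have hM' : 1 ≤ M' := by linarith
  have hε0 : 0 ≤ ε := (norm_nonneg _).trans hε
  refine ⟨T + t, _, _, _, hT, (h.step hβ hα hts ht hε).mono hζ ?_ ?_⟩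
  · have h1 := zpow_neg_le_of_le hβ (by linarith) hs
    have h2 : (M' ^ 4)⁻¹ ≤ G β / M := by
      have : M ≤ M' ^ 4 := by
        have : M' ≤ M' ^ 4 := le_self_pow₀ hM' (by norm_num)
        linarith
      calc (M' ^ 4)⁻¹ ≤ M⁻¹ := inv_anti₀ (by linarith) this
        _ = 1 / M := by rw [one_div]
        _ ≤ G β / M := div_le_div_of_nonneg_right hG (by linarith)
    have h3 : 24 * G β / M' ≤ 12 * (G β / M) := by
      calc 24 * G β / M' ≤ 24 * G β / (2 * M) :=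
            div_le_div_of_nonneg_left (by positivity) (by positivity) hMM
        _ = 12 * (G β / M) := by field_simp; norm_num
    have h4 : 24 * G β / M = 24 * (G β / M) := by ring
    linarith
  · have h1 : ((M ^ 4)⁻¹) ^ 2 * t ≤ 2 := by
      calc ((M ^ 4)⁻¹) ^ 2 * t ≤ ((M ^ 4)⁻¹) ^ 2 * (2 * M ^ 8) :=
            mul_le_mul_of_nonneg_left htM (by positivity)
        _ = 2 := by field_simp
    have h2 : (M ^ 4)⁻¹ * ε * ((T + t : ℕ) : ℝ) ≤ 1 := by
      calc (M ^ 4)⁻¹ * ε * ((T + t : ℕ) : ℝ) ≤ (M' ^ 4)⁻¹ * M' ^ 3 :=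
            mul_le_mul hζ hT (by positivity) (by positivity)
        _ = M'⁻¹ := by field_simp
        _ ≤ 1 := inv_le_one_of_one_le₀ hM'
    linarith

lemma Lv.step (hβ : 1 < β) (hα : ‖α‖ = 1) {s₀ : ℕ} (hs₀ : ∀ s, s₀ ≤ s → 2 ≤ β ^ s)
    {δ u E : ℝ} (hu : 48 ≤ u) (hu' : (s₀ : ℝ) ≤ u) (h : Lv β α δ (u ^ 8) E) :
    Lv β α δ (u ^ 22) (2 * E + (80 * G β + 528)) ∨
      Lv β α δ (u ^ 17) (2 * E + (80 * G β + 528)) := by
  obtain ⟨T, a, σ, z, hT, h⟩ := h
  have hu1 : 1 ≤ u := by linarith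
  have hu0 : 0 < u := by linarith
  have pw : ∀ i j : ℕ, i < j → 48 * u ^ i ≤ u ^ j := by
    intro i j hij
    calc 48 * u ^ i ≤ u * u ^ i := mul_le_mul_of_nonneg_right hu (by positivity)
      _ = u ^ (i + 1) := by ring
      _ ≤ u ^ j := pow_le_pow_right₀ hu1 hij
  have pw' : ∀ i j : ℕ, i ≤ j → u ^ i ≤ u ^ j := fun i j hij => pow_le_pow_right₀ hu1 hij
  have p0 : ∀ i : ℕ, 1 ≤ u ^ i := fun i => one_le_pow₀ hu1
  set s := ⌈u ^ 8⌉₊ with hsdef
  have hs1 : u ^ 8 ≤ s := Nat.le_ceil _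
  have hs2 : (s : ℝ) ≤ u ^ 8 + 1 := (Nat.ceil_lt_add_one (by positivity)).le
  set N := ⌈u ^ 64⌉₊ with hNdef
  have hN1 : u ^ 64 ≤ N := Nat.le_ceil _
  have hN2 : (N : ℝ) ≤ u ^ 64 + 1 := (Nat.ceil_lt_add_one (by positivity)).le
  have hN0 : 0 < N := Nat.ceil_pos.2 (by positivity)
  obtain ⟨t₀, ht0, ht1, ht2⟩ := dirichlet_circle hα hN0
  have ht2' : ‖α ^ t₀ - 1‖ ≤ 8 / u ^ 64 :=
    ht2.trans (div_le_div_of_nonneg_left (by norm_num) (by positivity) hN1)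
  have hT' : (T : ℝ) ≤ u ^ 24 := by rw [← pow_mul] at hT; exact hT
  have hss : s₀ ≤ s := by
    have : (s₀ : ℝ) ≤ s := by
      have := pw' 1 8 (by norm_num)
      rw [pow_one] at this
      linarith
    exact_mod_cast this
  have hL : ((T + 2 * s : ℕ) : ℝ) ≤ 5 * u ^ 24 := by
    push_cast
    have := pw' 8 24 (by norm_num)
    have := p0 24
    linarith
  by_cases hc : T + 2 * s ≤ t₀
  · left
    have ht1' : (t₀ : ℝ) ≤ u ^ 64 + 1 := le_trans (by exact_mod_cast ht1) hN2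
    refine Lv.finish hβ hα h (p0 8) ?_ hs1 hc (hs₀ _ (by omega)) ht2' ?_ ?_ ?_
    · have := pw 8 22 (by norm_num)
      have := p0 8
      linarith
    · rw [← pow_mul, ← pow_mul, ← div_eq_inv_mul, div_div, ← pow_add, ← one_div,
        div_le_div_iff₀ (by positivity) (by positivity)]
      have := pw 88 96 (by norm_num)
      have := p0 88
      norm_num
      linarith
    · rw [← pow_mul]
      push_cast
      have := pw 64 66 (by norm_num)
      have := pw' 24 64 (by norm_num)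
      have := p0 64
      norm_num
      linarith
    · rw [← pow_mul]
      have := p0 64
      norm_num
      linarith
  · right
    set L := T + 2 * s with hLdef
    set m := L / t₀ + 1 with hm
    have hm1 : L ≤ m * t₀ := by
      have := Nat.lt_div_mul_add (a := L) ht0
      rw [hm]; nlinarith
    have hm2 : m * t₀ ≤ 2 * L := by
      have := Nat.div_mul_le_self L t₀
      rw [hm]; nlinarith
    have hm3 : m ≤ L + 1 := by
      have := Nat.div_le_self L t₀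
      omega
    have hm2' : ((m * t₀ : ℕ) : ℝ) ≤ 10 * u ^ 24 := by
      have : ((m * t₀ : ℕ) : ℝ) ≤ 2 * (L : ℝ) := by exact_mod_cast hm2
      linarith
    have hm3' : (m : ℝ) ≤ 6 * u ^ 24 := by
      have : (m : ℝ) ≤ (L : ℝ) + 1 := by exact_mod_cast hm3
      have := p0 24
      linarith
    have hε : ‖α ^ (m * t₀) - 1‖ ≤ 48 / u ^ 40 := by
      refine (norm_pow_mul_sub_one_le hα t₀ m).trans ?_
      calc (m : ℝ) * ‖α ^ t₀ - 1‖ ≤ (6 * u ^ 24) * (8 / u ^ 64) :=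
            mul_le_mul hm3' ht2' (norm_nonneg _) (by positivity)
        _ = 48 / u ^ 40 := by field_simp; norm_num
    refine Lv.finish hβ hα h (p0 8) ?_ hs1 hm1 (hs₀ _ (by omega)) hε ?_ ?_ ?_
    · have := pw 8 17 (by norm_num)
      have := p0 8
      linarith
    · rw [← pow_mul, ← pow_mul, ← div_eq_inv_mul, div_div, ← pow_add, ← one_div,
        div_le_div_iff₀ (by positivity) (by positivity)]
      have := pw 68 72 (by norm_num)
      norm_num
      linarith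
    · rw [← pow_mul, Nat.cast_add]
      have := pw 24 51 (by norm_num)
      have := p0 24
      norm_num at *
      linarith
    · rw [← pow_mul]
      have := pw 24 64 (by norm_num)
      have := p0 24
      norm_num at *
      linarith

lemma exists_base (hβ : 1 < β) (hα : ‖α‖ = 1) {T : ℕ} {a σ : ℝ} {z : ℂ} {δ E : ℝ} (hδ : 0 < δ)
    (h : St β α T a σ z 1 δ E) (V : ℝ) :
    ∃ v E' : ℝ, V ≤ v ∧ 1 ≤ v ∧ Lv β α (δ / 2) (v ^ 2) E' := by
  have hG := one_le_G hβ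
  obtain ⟨s₀, hs₀⟩ := exists_two_le_pow hβ
  obtain ⟨s₁, hs₁⟩ := exists_nat_ge (32 * G β / δ)
  set s := s₀ + s₁ + 1 with hs
  have hs' : β ^ (-(s : ℤ)) ≤ δ / 32 := by
    have : 32 * G β / δ ≤ s := by rw [hs]; push_cast; linarith [Nat.cast_nonneg (α := ℝ) s₀]
    refine (zpow_neg_le_of_le hβ (by positivity) this).trans (le_of_eq ?_)
    field_simp
  set L := T + 2 * s with hL
  have hL1 : (1 : ℝ) ≤ L := by
    have : 1 ≤ L := by omega
    exact_mod_cast this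
  set v := |V| + 128 * L + (64 + 192 * G β) / δ with hv
  have hq : 0 ≤ (64 + 192 * G β) / δ := by positivity
  have hvV : V ≤ v := by linarith [le_abs_self V]
  have hvL : 128 * (L : ℝ) ≤ v := by linarith [abs_nonneg V]
  have hvq : (64 + 192 * G β) / δ ≤ v := by linarith [abs_nonneg V]
  have hv1 : 1 ≤ v := by linarith
  have hv0 : 0 < v := by linarith
  clear_value v
  set N := ⌈v ^ 5⌉₊ with hNdef
  have hN1 : v ^ 5 ≤ N := Nat.le_ceil _
  have hN2 : (N : ℝ) ≤ v ^ 5 + 1 := (Nat.ceil_lt_add_one (by positivity)).le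
  have hN0 : 0 < N := Nat.ceil_pos.2 (by positivity)
  obtain ⟨t₀, ht0, ht1, ht2⟩ := dirichlet_circle hα hN0
  have ht2' : ‖α ^ t₀ - 1‖ ≤ 8 / v ^ 5 :=
    ht2.trans (div_le_div_of_nonneg_left (by norm_num) (by positivity) hN1)
  have hε : ∀ m : ℕ, m ≤ 2 * L → ‖α ^ (m * t₀) - 1‖ ≤ (v ^ 4)⁻¹ := by
    intro m hm
    refine (norm_pow_mul_sub_one_le hα t₀ m).trans ?_
    have : (m : ℝ) ≤ 2 * L := by exact_mod_cast hm
    calc (m : ℝ) * ‖α ^ t₀ - 1‖ ≤ (v / 8) * (8 / v ^ 5) :=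
          mul_le_mul (by linarith) ht2' (norm_nonneg _) (by positivity)
      _ = (v ^ 4)⁻¹ := by field_simp
  have hLt : L ≤ L * t₀ := Nat.le_mul_of_pos_right _ ht0
  have h1 := h.step hβ hα (t := L * t₀) (s := s) hLt (hs₀ _ (by omega)) (hε L (by omega))
  have h2 := h1.step hβ hα (t := 2 * L * t₀) (s := s) (by rw [mul_assoc]; omega)
    (hs₀ _ (by rw [mul_assoc]; omega)) (hε (2 * L) le_rfl)
  refine ⟨v, _, hvV, hv1, _, _, _, _, ?_, h2.mono (le_of_eq ?_) ?_ le_rfl⟩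
  · have e1 : T + L * t₀ + 2 * L * t₀ ≤ 4 * L * N := by
      have : L * t₀ ≤ L * N := Nat.mul_le_mul_left _ ht1
      have : T ≤ L * t₀ := by omega
      nlinarith
    have e2 : ((T + L * t₀ + 2 * L * t₀ : ℕ) : ℝ) ≤ 4 * L * N := by exact_mod_cast e1
    have e3 : (1 : ℝ) ≤ v ^ 5 := one_le_pow₀ hv1
    calc ((T + L * t₀ + 2 * L * t₀ : ℕ) : ℝ) ≤ 4 * L * N := e2
      _ ≤ 4 * L * (2 * v ^ 5) := mul_le_mul_of_nonneg_left (by linarith) (by positivity)
      _ = (8 * L) * v ^ 5 := by ring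
      _ ≤ v * v ^ 5 := mul_le_mul_of_nonneg_right (by linarith) (by positivity)
      _ = (v ^ 2) ^ 3 := by ring
  · field_simp
  · have e1 : (v ^ 4)⁻¹ ≤ v⁻¹ := inv_anti₀ hv0 (le_self_pow₀ hv1 (by norm_num))
    have e2 : (v ^ 4)⁻¹ ≤ 1 := inv_le_one_of_one_le₀ (one_le_pow₀ hv1)
    have e0 : 0 ≤ (v ^ 4)⁻¹ := by positivity
    have e3 : (v ^ 4)⁻¹ * (v ^ 4)⁻¹ ≤ v⁻¹ := by nlinarith
    have e4 : 24 * G β / v ^ 2 ≤ 24 * G β * v⁻¹ := by
      rw [div_eq_mul_inv]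
      exact mul_le_mul_of_nonneg_left (inv_anti₀ hv0 (le_self_pow₀ hv1 (by norm_num)))
        (by positivity)
    have e5 : (64 + 192 * G β) * v⁻¹ ≤ δ := by
      rw [← div_eq_mul_inv, div_le_iff₀ hv0]
      rw [div_le_iff₀ hδ] at hvq
      linarith
    have e6 : 0 ≤ G β * v⁻¹ := by positivity
    nlinarith

lemma exists_levels (hβ : 1 < β) (hα : ‖α‖ = 1) {T : ℕ} {a σ : ℝ} {z : ℂ} {δ E : ℝ} (hδ : 0 < δ)
    (h : St β α T a σ z 1 δ E) :
    ∃ E₁ : ℝ, 0 ≤ E₁ ∧ ∀ k : ℕ, ∃ x : ℝ, (17 / 8) ^ k ≤ x ∧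
      Lv β α (δ / 2) (exp x) (2 ^ k * E₁) := by
  have hG := one_le_G hβ
  obtain ⟨s₀, hs₀⟩ := exists_two_le_pow hβ
  set U : ℝ := 48 + s₀ with hU
  have hU0 : 48 ≤ U := by rw [hU]; linarith [Nat.cast_nonneg (α := ℝ) s₀]
  obtain ⟨v, E', hv, hv1, hL⟩ := exists_base hβ hα hδ h (exp (4 * U))
  set x₀ := 2 * log v with hx₀
  have hx₀' : 8 * U ≤ x₀ := by
    have := Real.log_le_log (exp_pos _) hv
    rw [Real.log_exp] at this
    linarith
  have hvx : v ^ 2 = exp x₀ := by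
    rw [hx₀, two_mul, Real.exp_add, Real.exp_log (by linarith)]; ring
  set C := 80 * G β + 528 with hC
  have key : ∀ k : ℕ, ∃ x : ℝ, (17 / 8) ^ k * x₀ ≤ x ∧
      Lv β α (δ / 2) (exp x) (2 ^ k * (|E'| + C) - C) := by
    intro k
    induction k with
    | zero =>
      refine ⟨x₀, by simp, ?_⟩
      obtain ⟨T, a, σ, z, h1, h2⟩ := hL
      rw [hvx] at h1 h2
      exact ⟨T, a, σ, z, h1, h2.mono le_rfl le_rfl (by simpa using le_abs_self E')⟩
    | succ k ih =>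
      obtain ⟨x, hx, hL⟩ := ih
      have h1 : (1 : ℝ) ≤ (17 / 8) ^ k := one_le_pow₀ (by norm_num)
      have hx1 : 8 * U ≤ x := by nlinarith
      have hu : U ≤ exp (x / 8) := by
        have := Real.add_one_le_exp (x / 8)
        linarith
      have e : ∀ n : ℕ, exp (x / 8) ^ n = exp (n * (x / 8)) := fun n => by
        rw [Real.exp_nat_mul]
      have e8 : exp x = exp (x / 8) ^ 8 := by rw [e]; congr 1; push_cast; ring
      rw [e8] at hL
      have eE : 2 * (2 ^ k * (|E'| + C) - C) + C = 2 ^ (k + 1) * (|E'| + C) - C := by ring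
      rcases hL.step hβ hα hs₀ (hU0.trans hu) (le_trans (by rw [hU]; linarith) hu) with h | h
      · rw [e, ← hC, eE] at h
        refine ⟨_, ?_, h⟩
        rw [pow_succ]; push_cast; nlinarith
      · rw [e, ← hC, eE] at h
        refine ⟨_, ?_, h⟩
        rw [pow_succ]; push_cast; nlinarith
  refine ⟨|E'| + C, by positivity, fun k => ?_⟩
  obtain ⟨x, hx, T, a, σ, z, h1, h2⟩ := key k
  have h3 : (0 : ℝ) ≤ (17 / 8) ^ k := by positivity
  refine ⟨x, by nlinarith, T, a, σ, z, h1, h2.mono le_rfl le_rfl ?_⟩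
  have : 0 ≤ C := by positivity
  linarith

end Crest.Agent.R104
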