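import Crest.Agent.R104.Levels
import Crest.Agent.R104.CharFun
import Crest.Agent.R104.Criterion

/-!
Fourier estimates and the final assembly.
-/

set_option autoImplicit false

namespace Crest.Agent.R104

open Real Finset MeasureTheory Filter Topology ProbabilityTheory Crest.AnalysisR
open scoped ComplexConjugate

lemma abs_prod_sub_prod_le (f g : ℕ → ℝ) (hf : ∀ i, |f i| ≤ 1) (hg : ∀ i, |g i| ≤ 1) (K : ℕ) :
    |∏ i ∈ range K, f i - ∏ i ∈ range K, g i| ≤ ∑ i ∈ range K, |f i - g i| := by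
  induction K with
  | zero => simp
  | succ K ih =>
    rw [prod_range_succ, prod_range_succ, sum_range_succ]
    have h1 : |∏ i ∈ range K, g i| ≤ 1 := by
      rw [Finset.abs_prod]
      exact Finset.prod_le_one (fun _ _ => abs_nonneg _) (fun i _ => hg i)
    have e : (∏ i ∈ range K, f i) * f K - (∏ i ∈ range K, g i) * g K =
        (∏ i ∈ range K, f i - ∏ i ∈ range K, g i) * f K + (∏ i ∈ range K, g i) * (f K - g K) := by
      ring
    rw [e]
    refine (abs_add_le _ _).trans ?_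
    rw [abs_mul, abs_mul]
    have h2 := mul_le_of_le_one_right (abs_nonneg (∏ i ∈ range K, f i - ∏ i ∈ range K, g i)) (hf K)
    have h3 := mul_le_of_le_one_left (abs_nonneg (f K - g K)) h1
    linarith

variable {β : ℝ}

lemma freq_eq (hβ : 1 < β) (a : ℝ) (n : ℤ) (m : ℕ) :
    π * (a * β ^ n) * β⁻¹ ^ m = π * (a * β ^ (n - m)) := by
  have hβ0 : β ≠ 0 := by positivity
  rw [zpow_sub₀ hβ0, zpow_natCast, inv_pow]; ring

lemma sum_range_le {f : ℤ → ℝ} {J : ℤ} {E : ℝ} (h : SB f (fun j => j < J) E) {n : ℤ} (hn : n < J)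
    (K : ℕ) : ∑ m ∈ range K, f (n - m) ≤ E := by
  rw [← Finset.sum_image (f := f) (g := fun m : ℕ => n - m) (fun x _ y _ h => by
    simp only at h; omega)]
  refine h _ fun j hj => ?_
  obtain ⟨i, -, rfl⟩ := Finset.mem_image.1 hj
  omega

lemma charFun_lower (hβ : 1 < β) {a δ E : ℝ} {J : ℤ} (hδ : 0 < δ)
    (hcos : ∀ j : ℤ, δ ≤ |cos (π * (a * β ^ j))|)
    (hE : SB (fun j => sin (π * (a * β ^ j)) ^ 2) (fun j => j < J) E) {n : ℤ} (hn : n < J) :
    exp (-(E / δ ^ 2) / 2) ≤ ‖charFun (bernoulliConvolution β⁻¹) (π * (a * β ^ n))‖ := by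
  have h0 : 0 ≤ β⁻¹ := by positivity
  have h1 : β⁻¹ < 1 := inv_lt_one_of_one_lt₀ hβ
  refine ge_of_tendsto' (tendsto_charFun h0 h1 (π * (a * β ^ n))).norm fun K => ?_
  rw [Complex.norm_real, Real.norm_eq_abs]
  refine le_of_sq_le_sq ?_ (abs_nonneg _) |> id
  rw [sq_abs, ← Real.exp_nat_mul, ← Finset.prod_pow]
  simp_rw [freq_eq hβ]
  have h2 := sum_range_le hE hn K
  calc exp (((2 : ℕ) : ℝ) * (-(E / δ ^ 2) / 2)) = exp (-(E / δ ^ 2)) := by congr 1; push_cast; ring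
    _ ≤ exp (∑ m ∈ range K, -(sin (π * (a * β ^ (n - m))) ^ 2 / δ ^ 2)) := by
        rw [Real.exp_le_exp, Finset.sum_neg_distrib, ← Finset.sum_div, neg_le_neg_iff]
        exact div_le_div_of_nonneg_right h2 (by positivity)
    _ = ∏ m ∈ range K, exp (-(sin (π * (a * β ^ (n - m))) ^ 2 / δ ^ 2)) := Real.exp_sum _ _
    _ ≤ _ := Finset.prod_le_prod (fun _ _ => (exp_pos _).le)
        (fun m _ => exp_le_cos_sq hδ (hcos _))

lemma charFun_cov (hβ : 1 < β) {a A : ℝ} {J : ℤ}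
    (hA : SB (fun j => |sin (π * (a * β ^ j))|) (fun j => j < J) A) (s : Finset ℤ)
    (hs : ∀ n ∈ s, n < J) :
    ∑ n ∈ s, ∑ m ∈ s, ‖charFun (bernoulliConvolution β⁻¹) (π * (a * β ^ n) - π * (a * β ^ m)) -
      charFun (bernoulliConvolution β⁻¹) (π * (a * β ^ n)) *
        conj (charFun (bernoulliConvolution β⁻¹) (π * (a * β ^ m)))‖ ≤ s.card * A ^ 2 := by
  have h0 : 0 ≤ β⁻¹ := by positivity
  have h1 : β⁻¹ < 1 := inv_lt_one_of_one_lt₀ hβ
  have hA0 : 0 ≤ A := by simpa using hA ∅ (by simp)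
  have T := fun ξ => tendsto_charFun h0 h1 ξ
  have lim := tendsto_finsetSum s fun n _ => tendsto_finsetSum s fun m _ =>
    ((T (π * (a * β ^ n) - π * (a * β ^ m))).sub ((T (π * (a * β ^ n))).mul
      ((Complex.continuous_conj.tendsto _).comp (T (π * (a * β ^ m)))))).norm
  refine le_of_tendsto' lim fun K => ?_
  have step : ∀ n m : ℤ, ‖((∏ i ∈ range K, cos ((π * (a * β ^ n) - π * (a * β ^ m)) * β⁻¹ ^ i) : ℝ) : ℂ)
      - ((∏ i ∈ range K, cos (π * (a * β ^ n) * β⁻¹ ^ i) : ℝ) : ℂ) *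
        (conj ∘ fun K => ((∏ i ∈ range K, cos (π * (a * β ^ m) * β⁻¹ ^ i) : ℝ) : ℂ)) K‖ ≤
      ∑ i ∈ range K, |sin (π * (a * β ^ (n - i)))| * |sin (π * (a * β ^ (m - i)))| := by
    intro n m
    rw [Function.comp_apply, Complex.conj_ofReal, ← Complex.ofReal_mul, ← Complex.ofReal_sub,
      Complex.norm_real, Real.norm_eq_abs, ← Finset.prod_mul_distrib]
    refine (abs_prod_sub_prod_le _ _ (fun _ => abs_cos_le_one _) (fun i => ?_) K).trans
      (le_of_eq (Finset.sum_congr rfl fun i _ => ?_))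
    · rw [abs_mul]; exact mul_le_one₀ (abs_cos_le_one _) (abs_nonneg _) (abs_cos_le_one _)
    · rw [sub_mul, freq_eq hβ, freq_eq hβ, Real.cos_sub, add_sub_cancel_left, abs_mul]
  refine (Finset.sum_le_sum fun n _ => Finset.sum_le_sum fun m _ => step n m).trans ?_
  have inner : ∀ n ∈ s, ∑ m ∈ s, ∑ i ∈ range K,
      |sin (π * (a * β ^ (n - i)))| * |sin (π * (a * β ^ (m - i)))| ≤ A ^ 2 := by
    intro n hn
    rw [Finset.sum_comm]
    have h2 : ∀ i ∈ range K, ∑ m ∈ s,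
        |sin (π * (a * β ^ (n - i)))| * |sin (π * (a * β ^ (m - i)))| ≤
        |sin (π * (a * β ^ (n - i)))| * A := by
      intro i _
      rw [← Finset.mul_sum]
      refine mul_le_mul_of_nonneg_left ?_ (abs_nonneg _)
      exact (hA.comp (g := fun j => j - i) (Q := fun j => j < J) sub_left_injective
        (fun j hj => by omega)) s hs
    refine (Finset.sum_le_sum h2).trans ?_
    rw [← Finset.sum_mul, sq]
    exact mul_le_mul_of_nonneg_right (sum_range_le hA (hs n hn) K) hA0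
  have := Finset.sum_le_card_nsmul s _ _ inner
  simpa using this

lemma gauss_cov (hβ : 1 < β) {a : ℝ} (ha : 1 ≤ a) {N : ℕ} (hN : 0 < N) :
    ∑ n ∈ Ico (N : ℤ) (2 * N), ∑ m ∈ Ico (N : ℤ) (2 * N),
      ‖charFun (gaussianReal 0 1) (π * (a * β ^ n) - π * (a * β ^ m))‖ ≤
      N * (1 + 2 / (β - 1) ^ 4) := by
  have hβ0 : β ≠ 0 := by positivity
  have hb : 0 < β - 1 := by linarith
  have hN' : (1 : ℝ) ≤ N := by exact_mod_cast hN
  have hc : ∀ y : ℝ, ‖charFun (gaussianReal 0 1) y‖ = exp (-(y ^ 2 / 2)) := by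
    intro y
    rw [charFun_gaussianReal, Complex.norm_exp]
    congr 1
    simp [← Complex.ofReal_pow]
  have sep : ∀ n m : ℤ, (N : ℤ) ≤ m → m < n →
      (β - 1) ^ 2 * N ≤ π * (a * β ^ n) - π * (a * β ^ m) := by
    intro n m hm hn
    have h1 : β ^ (m + 1) ≤ β ^ n := zpow_le_zpow_right₀ hβ.le (by omega)
    have h2 : β ^ (N : ℤ) ≤ β ^ m := zpow_le_zpow_right₀ hβ.le hm
    rw [zpow_add_one₀ hβ0] at h1
    rw [zpow_natCast] at h2
    have h3 : 1 + (N : ℝ) * (β - 1) ≤ β ^ N := by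
      have := one_add_mul_le_pow (a := β - 1) (by linarith) N
      simpa using this
    have h4 : (β - 1) ^ 2 * N ≤ β ^ n - β ^ m := by nlinarith
    have h5 : 1 ≤ π * a := by nlinarith [pi_gt_three]
    have h6 : 0 ≤ (β - 1) ^ 2 * N := by positivity
    nlinarith
  have off : ∀ y : ℝ, (β - 1) ^ 2 * N ≤ |y| → exp (-(y ^ 2 / 2)) ≤ 2 / (β - 1) ^ 4 / N := by
    intro y hy
    have h1 : ((β - 1) ^ 2 * N) ^ 2 ≤ y ^ 2 := by
      rw [← sq_abs y]; exact pow_le_pow_left₀ (by positivity) hy 2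
    have h2 := Real.add_one_le_exp (y ^ 2 / 2)
    have h3 : (β - 1) ^ 4 * N ≤ ((β - 1) ^ 2 * N) ^ 2 := by
      have : 0 < (β - 1) ^ 4 := by positivity
      nlinarith
    rw [Real.exp_neg, div_div, inv_le_comm₀ (exp_pos _) (by positivity), inv_div]
    linarith
  have row : ∀ n ∈ Ico (N : ℤ) (2 * N), ∑ m ∈ Ico (N : ℤ) (2 * N),
      ‖charFun (gaussianReal 0 1) (π * (a * β ^ n) - π * (a * β ^ m))‖ ≤ 1 + 2 / (β - 1) ^ 4 := by
    intro n hn
    have h1 : ∀ m ∈ Ico (N : ℤ) (2 * N),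
        ‖charFun (gaussianReal 0 1) (π * (a * β ^ n) - π * (a * β ^ m))‖ ≤
          (if n = m then 1 else 0) + 2 / (β - 1) ^ 4 / N := by
      intro m hm
      rw [Finset.mem_Ico] at hn hm
      split_ifs with h
      · have := norm_charFun_le_one (μ := gaussianReal 0 1) (π * (a * β ^ n) - π * (a * β ^ m))
        have : 0 ≤ 2 / (β - 1) ^ 4 / N := by positivity
        linarith
      · rw [hc, zero_add]
        apply off
        rcases lt_or_gt_of_ne h with h | h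
        · rw [abs_sub_comm]; exact (sep m n hn.1 h).trans (le_abs_self _)
        · exact (sep n m hm.1 h).trans (le_abs_self _)
    refine (Finset.sum_le_sum h1).trans (le_of_eq ?_)
    rw [Finset.sum_add_distrib, Finset.sum_ite_eq, if_pos hn, Finset.sum_const, Int.card_Ico]
    have : (2 * (N : ℤ) - N).toNat = N := by omega
    rw [this, nsmul_eq_mul]
    field_simp
  have := Finset.sum_le_card_nsmul _ _ _ row
  rw [Int.card_Ico] at this
  have e : (2 * (N : ℤ) - N).toNat = N := by omega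
  rw [e, nsmul_eq_mul] at this
  exact this

theorem singular_gauss (h : IsQuarticSalem β) :
    (bernoulliConvolution β⁻¹).MutuallySingular (gaussianReal 0 1) := by
  have hβ : 1 < β := h.1
  have h0 : 0 ≤ β⁻¹ := by positivity
  have h1 : β⁻¹ < 1 := inv_lt_one_of_one_lt₀ hβ
  have := isProb_bc h0 h1
  obtain ⟨α, hα, htr, hi'⟩ := salem_structure h
  obtain ⟨T₀, a₀, σ₀, z₀, δ₀, E₀, hδ₀, hst⟩ := exists_first_state hβ hα htr h.2.1 hi'
  obtain ⟨E₁, hE₁, hlev⟩ := exists_levels hβ hα hδ₀ hst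
  have hG := one_le_G hβ
  have hb : 0 < β - 1 := by linarith
  set δ := δ₀ / 2 with hδdef
  have hδ : 0 < δ := by positivity
  apply mutuallySingular_of_charFun
  intro ε hε
  set C₁ := (8 * G β + 33) ^ 2 + (1 + 2 / (β - 1) ^ 4) with hC₁
  set C₂ := 32 * G β + 512 with hC₂
  have hC₁0 : 0 < C₁ := by positivity
  have hC₂0 : 0 < C₂ := by positivity
  obtain ⟨k, hk⟩ := pow_unbounded_of_one_lt (E₁ / δ ^ 2 + C₂ / δ ^ 2 + C₁ / ε)
    (by norm_num : (1 : ℝ) < 17 / 16)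
  obtain ⟨x, hx, T, a, σ, z, hT, hS⟩ := hlev k
  set M := exp x with hM
  have h2k : (1 : ℝ) ≤ 2 ^ k := one_le_pow₀ (by norm_num)
  have hx0 : 0 ≤ x := le_trans (by positivity) hx
  have hM1 : 1 ≤ M := Real.one_le_exp hx0
  have hM0 : 0 < M := by linarith
  set N := ⌈M ^ 7⌉₊ with hNdef
  have hN1 : M ^ 7 ≤ N := Nat.le_ceil _
  have hM7 : 1 ≤ M ^ 7 := one_le_pow₀ hM1
  have hN2 : (N : ℝ) ≤ 2 * M ^ 7 := by
    have := (Nat.ceil_lt_add_one (a := M ^ 7) (by positivity)).le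
    linarith
  have hN0 : 0 < N := Nat.ceil_pos.2 (by positivity)
  have hN0' : (0 : ℝ) < N := by exact_mod_cast hN0
  set E₂ := 2 ^ k * E₁ + C₂ with hE₂
  set w := exp (-(E₂ / δ ^ 2) / 2) with hw
  have hw0 : 0 < w := exp_pos _
  have hkey : C₁ ≤ ε * M * w ^ 2 := by
    have e1 : M * w ^ 2 = exp (x - E₂ / δ ^ 2) := by
      rw [hw, hM, ← Real.exp_nat_mul, ← Real.exp_add]; congr 1; push_cast; ring
    have e2 : (17 / 8 : ℝ) ^ k = 2 ^ k * (17 / 16) ^ k := by rw [← mul_pow]; norm_num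
    have e3 : C₁ / ε ≤ x - E₂ / δ ^ 2 := by
      have p1 : 0 ≤ C₂ / δ ^ 2 := by positivity
      have p2 : 0 ≤ C₁ / ε := by positivity
      have p3 : E₂ / δ ^ 2 = 2 ^ k * (E₁ / δ ^ 2) + C₂ / δ ^ 2 := by rw [hE₂]; ring
      rw [p3]
      rw [e2] at hx
      nlinarith
    have e4 := Real.add_one_le_exp (x - E₂ / δ ^ 2)
    rw [mul_assoc, e1]
    rw [div_le_iff₀ hε] at e3
    nlinarith
  have hcard : ((Ico (N : ℤ) (2 * N)).card : ℝ) = N := by
    rw [Int.card_Ico]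
    have e : (2 * (N : ℤ) - N).toNat = N := by omega
    rw [e]
  have hEn : SB (fun j => sin (π * (a * β ^ j)) ^ 2) (fun j => j < ((2 * N : ℕ) : ℤ)) E₂ := by
    refine (hS.alg.extend hβ hα hS.hz hS.hE (2 * N)).mono (fun _ h => h) (fun _ _ => le_rfl) ?_
    have : ((M ^ 4)⁻¹) ^ 2 * ((2 * N : ℕ) : ℝ) ≤ 4 := by
      push_cast
      calc ((M ^ 4)⁻¹) ^ 2 * (2 * N) ≤ ((M ^ 4)⁻¹) ^ 2 * (2 * (2 * M ^ 7)) :=
            mul_le_mul_of_nonneg_left (by linarith) (by positivity)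
        _ = 4 * M⁻¹ := by field_simp; norm_num
        _ ≤ 4 := by linarith [inv_le_one_of_one_le₀ hM1]
    rw [hE₂, hC₂]
    linarith
  have hA : SB (fun j => |sin (π * (a * β ^ j))|) (fun j => j < ((2 * N : ℕ) : ℤ))
      ((8 * G β + 33) * M ^ 3) := by
    refine (hS.alg.l1 hβ hα hS.hz (2 * N)).mono (fun _ h => h) (fun _ _ => le_rfl) ?_
    have : ((M ^ 4)⁻¹) * ((2 * N : ℕ) : ℝ) ≤ 4 * M ^ 3 := by
      push_cast
      calc ((M ^ 4)⁻¹) * (2 * N) ≤ ((M ^ 4)⁻¹) * (2 * (2 * M ^ 7)) :=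
            mul_le_mul_of_nonneg_left (by linarith) (by positivity)
        _ = 4 * M ^ 3 := by field_simp; norm_num
    have hM3 : 1 ≤ M ^ 3 := one_le_pow₀ hM1
    nlinarith
  have hfin : ∀ B : ℝ, B ≤ C₁ * M ^ 6 → N * B ≤ ε * (N * w) ^ 2 := by
    intro B hB
    calc N * B ≤ N * (C₁ * M ^ 6) := mul_le_mul_of_nonneg_left hB hN0'.le
      _ ≤ N * ((ε * M * w ^ 2) * M ^ 6) := by gcongr
      _ = N * (ε * w ^ 2 * M ^ 7) := by ring
      _ ≤ N * (ε * w ^ 2 * N) := by gcongr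
      _ = ε * (N * w) ^ 2 := by ring
  have hM6 : 1 ≤ M ^ 6 := one_le_pow₀ hM1
  refine ⟨Ico (N : ℤ) (2 * N), fun n => π * (a * β ^ n), w, hw0,
    ⟨N, Finset.mem_Ico.2 ⟨le_rfl, by omega⟩⟩, fun n hn => ?_, ?_, ?_⟩
  · refine charFun_lower hβ hδ (fun j => le_trans ?_ (hS.hcos j)) hEn ?_
    · have : 0 ≤ 24 * G β / M := by positivity
      linarith
    · have := (Finset.mem_Ico.1 hn).2
      push_cast; exact this
  · refine (charFun_cov hβ hA _ (fun n hn => ?_)).trans ?_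
    · have := (Finset.mem_Ico.1 hn).2
      push_cast; exact this
    · rw [hcard]
      apply hfin
      have q : 0 ≤ (1 + 2 / (β - 1) ^ 4) * M ^ 6 := by positivity
      have e : ((8 * G β + 33) * M ^ 3) ^ 2 = (8 * G β + 33) ^ 2 * M ^ 6 := by ring
      rw [hC₁, e, add_mul]
      linarith
  · refine (gauss_cov hβ hS.alg.one_le hN0).trans ?_
    rw [hcard]
    apply hfin
    have q1 : 0 ≤ (8 * G β + 33) ^ 2 * M ^ 6 := by positivity
    have q2 : 0 ≤ (1 + 2 / (β - 1) ^ 4) := by positivity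
    have q3 := le_mul_of_one_le_right q2 hM6
    rw [hC₁, add_mul]
    linarith

theorem singular_volume (h : IsQuarticSalem β) :
    (bernoulliConvolution β⁻¹).MutuallySingular (volume : Measure ℝ) :=
  (singular_gauss h).mono_ac Measure.AbsolutelyContinuous.rfl
    (gaussianReal_absolutelyContinuous' 0 one_ne_zero)

end Crest.Agent.R104
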