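import Crest.Agent.R104.Tools
import Crest.Agent.R104.Alg

/-!
The frequencies `a = ∏ (β ^ t_i - 1)` and the invariants carried along the construction.
-/

set_option autoImplicit false

namespace Crest.Agent.R104

open Real Finset

/-- algebraic part of a state. -/
structure AlgSt (β : ℝ) (α : ℂ) (T : ℕ) (a σ : ℝ) (z : ℂ) : Prop where
  one_le : 1 ≤ a
  le_pow : a ≤ β ^ T
  sgn : σ = 1 ∨ σ = -1
  rel : ∀ j : ℤ, ∃ n : ℤ, a * β ^ j + σ * (a * β ^ (-(T : ℤ) - j)) + 2 * (z * α ^ j).re = n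

variable {β : ℝ} {α : ℂ} {T : ℕ} {a σ : ℝ} {z : ℂ}

lemma AlgSt.step (hβ : 1 < β) (hα : ‖α‖ = 1) (h : AlgSt β α T a σ z) {t : ℕ} (ht : 2 ≤ β ^ t) :
    AlgSt β α (T + t) (a * (β ^ t - 1)) (-σ) (z * (α ^ t - 1)) := by
  have hβ0 : β ≠ 0 := by positivity
  have hα0 : α ≠ 0 := by rintro rfl; simp at hα
  refine ⟨by nlinarith [h.one_le], ?_, ?_, fun j => ?_⟩
  · rw [pow_add]
    exact mul_le_mul h.le_pow (by linarith) (by linarith) (by positivity)
  · rcases h.sgn with h | h <;> simp [h]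
  · obtain ⟨n, hn⟩ := h.rel j
    obtain ⟨m, hm⟩ := h.rel (j + t)
    refine ⟨m - n, ?_⟩
    have e1 : β ^ (j + t) = β ^ j * β ^ t := by rw [zpow_add₀ hβ0, zpow_natCast]
    have e2 : β ^ (-(T : ℤ) - j) = β ^ (-(T : ℤ) - (j + t)) * β ^ t := by
      rw [← zpow_natCast β t, ← zpow_add₀ hβ0]; congr 1; ring
    have e3 : (z * (α ^ t - 1) * α ^ j).re = (z * α ^ (j + t)).re - (z * α ^ j).re := by
      rw [← Complex.sub_re, zpow_add₀ hα0, zpow_natCast]; congr 1; ring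
    have e4 : (-((T + t : ℕ) : ℤ) - j) = -(T : ℤ) - (j + t) := by push_cast; ring
    rw [e3, e4]
    rw [e1] at hm
    rw [e2] at hn
    push_cast
    linear_combination hm - hn

lemma AlgSt.abs_le (hβ : 1 < β) (h : AlgSt β α T a σ z) (j : ℤ) : |a * β ^ j| ≤ β ^ (j + T) := by
  have hβ0 : β ≠ 0 := by positivity
  have := h.one_le
  rw [abs_of_pos (by positivity), zpow_add₀ hβ0, zpow_natCast, mul_comm]
  exact mul_le_mul_of_nonneg_left h.le_pow (by positivity)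

lemma abs_re_le (hα : ‖α‖ = 1) {ζ : ℝ} (hz : ‖z‖ ≤ ζ) (j : ℤ) : |2 * (z * α ^ j).re| ≤ 2 * ζ := by
  rw [abs_mul, abs_two]
  have := Complex.abs_re_le_norm (z * α ^ j)
  rw [norm_mul, norm_zpow, hα, one_zpow, mul_one] at this
  linarith

lemma AlgSt.reflect_sin (hα : ‖α‖ = 1) (h : AlgSt β α T a σ z) {ζ : ℝ} (hz : ‖z‖ ≤ ζ) (j : ℤ) :
    |sin (π * (a * β ^ j))| ≤ |sin (π * (a * β ^ (-(T : ℤ) - j)))| + 8 * ζ := by
  obtain ⟨n, hn⟩ := h.rel j
  have e : a * β ^ j = n - (σ * (a * β ^ (-(T : ℤ) - j)) + 2 * (z * α ^ j).re) := by linarith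
  rw [e, abs_sin_pi_int_sub]
  refine (abs_sin_pi_add_le _ _).trans ?_
  have := abs_re_le hα hz j
  have e2 : |sin (π * (σ * (a * β ^ (-(T : ℤ) - j))))| = |sin (π * (a * β ^ (-(T : ℤ) - j)))| := by
    rcases h.sgn with h | h <;> simp [h]
  linarith

lemma AlgSt.reflect_cos (hα : ‖α‖ = 1) (h : AlgSt β α T a σ z) {ζ : ℝ} (hz : ‖z‖ ≤ ζ) (j : ℤ) :
    |cos (π * (a * β ^ (-(T : ℤ) - j)))| - 8 * ζ ≤ |cos (π * (a * β ^ j))| := by
  obtain ⟨n, hn⟩ := h.rel j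
  have e : a * β ^ j = n - (σ * (a * β ^ (-(T : ℤ) - j)) + 2 * (z * α ^ j).re) := by linarith
  rw [e, abs_cos_pi_int_sub]
  refine le_trans ?_ (abs_cos_pi_add_ge _ _)
  have := abs_re_le hα hz j
  have e2 : |cos (π * (σ * (a * β ^ (-(T : ℤ) - j))))| = |cos (π * (a * β ^ (-(T : ℤ) - j)))| := by
    rcases h.sgn with h | h <;> simp [h]
  linarith

lemma AlgSt.sin_le_right (hβ : 1 < β) (hα : ‖α‖ = 1) (h : AlgSt β α T a σ z) {ζ : ℝ}
    (hz : ‖z‖ ≤ ζ) (j : ℤ) : |sin (π * (a * β ^ j))| ≤ 4 * β ^ (-j) + 8 * ζ := by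
  have h1 := h.reflect_sin hα hz j
  have h2 := abs_sin_pi_le (a * β ^ (-(T : ℤ) - j))
  have h3 := h.abs_le hβ (-(T : ℤ) - j)
  have e : -(T : ℤ) - j + T = -j := by ring
  rw [e] at h3
  linarith

lemma geo_right (hβ : 1 < β) : SB (fun j => β ^ (-j)) (fun j => 0 ≤ j) (G β) :=
  (SB.geo hβ).comp (g := fun j => -j) neg_injective (fun j hj => by simpa using hj)

lemma geo_left (hβ : 1 < β) (T : ℕ) : SB (fun j => β ^ (j + T)) (fun j => j + T ≤ 0) (G β) :=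
  (SB.geo hβ).comp (g := fun j => j + T) (add_left_injective _) (fun _ hj => hj)

/-- `ℓ¹` bound. -/
lemma AlgSt.l1 (hβ : 1 < β) (hα : ‖α‖ = 1) (h : AlgSt β α T a σ z) {ζ : ℝ}
    (hz : ‖z‖ ≤ ζ) (J : ℕ) :
    SB (fun j => |sin (π * (a * β ^ j))|) (fun j => j < J) (8 * G β + T + 8 * ζ * J) := by
  have hζ : 0 ≤ ζ := (norm_nonneg _).trans hz
  have h1 : SB (fun j => |sin (π * (a * β ^ j))|) (fun j => j + T ≤ 0) (4 * G β) :=
    ((geo_left hβ T).smul (c := 4) (by norm_num)).mono (fun _ h => h) (fun j _ => by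
      have := abs_sin_pi_le (a * β ^ j)
      have := h.abs_le hβ j
      linarith) le_rfl
  have h2 : SB (fun j => |sin (π * (a * β ^ j))|) (fun j => -(T : ℤ) ≤ j ∧ j < -(T : ℤ) + T)
      (1 * T) :=
    (SB.const zero_le_one (-(T : ℤ)) T).mono (fun _ h => h) (fun j _ => abs_sin_le_one _) le_rfl
  have h3 : SB (fun j => |sin (π * (a * β ^ j))|) (fun j => 0 ≤ j ∧ j < 0 + J)
      (4 * G β + 8 * ζ * J) :=
    ((((geo_right hβ).smul (c := 4) (by norm_num)).mono (Q := fun j => 0 ≤ j ∧ j < 0 + J)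
      (fun _ h => h.1) (fun _ _ => le_rfl) le_rfl).add
      (SB.const (c := 8 * ζ) (by positivity) 0 J)).mono (fun _ h => h)
      (fun j _ => h.sin_le_right hβ hα hz j) le_rfl
  have h4 := h1.union h2 (R := fun j => j < 0) (fun j _ _ => by omega)
  exact (h4.union h3 (R := fun j => j < J) (fun j _ _ => by omega)).mono (fun _ h => h)
    (fun _ _ => le_rfl) (by linarith)

/-- extension of the energy bound to the right of `0`. -/
lemma AlgSt.extend (hβ : 1 < β) (hα : ‖α‖ = 1) (h : AlgSt β α T a σ z) {ζ E : ℝ}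
    (hz : ‖z‖ ≤ ζ) (hE : SB (fun j => sin (π * (a * β ^ j)) ^ 2) (fun j => j < 0) E) (J : ℕ) :
    SB (fun j => sin (π * (a * β ^ j)) ^ 2) (fun j => j < J)
      (E + (32 * G β + 128 * ζ ^ 2 * J)) := by
  have hζ : 0 ≤ ζ := (norm_nonneg _).trans hz
  have h3 : SB (fun j => sin (π * (a * β ^ j)) ^ 2) (fun j => 0 ≤ j ∧ j < 0 + J)
      (32 * G β + 128 * ζ ^ 2 * J) :=
    ((((geo_right hβ).smul (c := 32) (by norm_num)).mono (Q := fun j => 0 ≤ j ∧ j < 0 + J)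
      (fun _ h => h.1) (fun _ _ => le_rfl) le_rfl).add
      (SB.const (c := 128 * ζ ^ 2) (by positivity) 0 J)).mono (fun _ h => h)
      (fun j hj => by
        have h1 := h.sin_le_right hβ hα hz j
        have h2 : β ^ (-j) ≤ 1 := zpow_le_one_of_nonpos₀ hβ.le (by omega)
        have h3 : 0 < β ^ (-j) := by positivity
        have h4 := pow_le_pow_left₀ (abs_nonneg _) h1 2
        rw [sq_abs] at h4
        nlinarith [sq_nonneg (4 * β ^ (-j) - 8 * ζ)]) le_rfl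
  exact hE.union h3 (fun j _ _ => by omega)

/-- full state. -/
structure St (β : ℝ) (α : ℂ) (T : ℕ) (a σ : ℝ) (z : ℂ) (ζ δ E : ℝ) : Prop where
  alg : AlgSt β α T a σ z
  hz : ‖z‖ ≤ ζ
  hcos : ∀ j : ℤ, δ ≤ |cos (π * (a * β ^ j))|
  hE : SB (fun j => sin (π * (a * β ^ j)) ^ 2) (fun j => j < 0) E

lemma St.mono {ζ δ E ζ' δ' E' : ℝ} (h : St β α T a σ z ζ δ E) (h1 : ζ ≤ ζ') (h2 : δ' ≤ δ)
    (h3 : E ≤ E') : St β α T a σ z ζ' δ' E' :=
  ⟨h.alg, h.hz.trans h1, fun j => h2.trans (h.hcos j),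
    h.hE.mono (fun _ h => h) (fun _ _ => le_rfl) h3⟩

lemma St.step (hβ : 1 < β) (hα : ‖α‖ = 1) {ζ δ E ε : ℝ} (h : St β α T a σ z ζ δ E) {t s : ℕ}
    (hts : T + 2 * s ≤ t) (ht : 2 ≤ β ^ t) (hε : ‖α ^ t - 1‖ ≤ ε) :
    St β α (T + t) (a * (β ^ t - 1)) (-σ) (z * (α ^ t - 1)) (ζ * ε)
      (δ - 4 * β ^ (-(s : ℤ)) - 8 * (ζ * ε))
      (2 * (E + 40 * G β + 128 * ζ ^ 2 * t) + 16 * (ζ * ε) * (T + t : ℕ)) := by
  have hβ0 : β ≠ 0 := by positivity
  have hζ : 0 ≤ ζ := (norm_nonneg _).trans h.hz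
  have hε0 : 0 ≤ ε := (norm_nonneg _).trans hε
  have halg := h.alg.step hβ hα ht
  have hz' : ‖z * (α ^ t - 1)‖ ≤ ζ * ε := by
    rw [norm_mul]; exact mul_le_mul h.hz hε (norm_nonneg _) hζ
  have ht0 : 0 < t := by
    rcases Nat.eq_zero_or_pos t with rfl | h
    · norm_num at ht
    · exact h
  have e : ∀ j : ℤ, a * (β ^ t - 1) * β ^ j = a * β ^ (j + t) + -(a * β ^ j) := by
    intro j; rw [zpow_add₀ hβ0, zpow_natCast]; ring
  have hcos1 : ∀ j : ℤ, 2 * j ≤ -((T + t : ℕ) : ℤ) →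
      δ - 4 * β ^ (-(s : ℤ)) ≤ |cos (π * (a * (β ^ t - 1) * β ^ j))| := by
    intro j hj
    rw [e]
    refine le_trans ?_ (abs_cos_pi_add_ge _ _)
    have h1 := h.hcos (j + t)
    have h2 := h.alg.abs_le hβ j
    have h3 : β ^ (j + T) ≤ β ^ (-(s : ℤ)) := zpow_le_zpow_right₀ hβ.le (by push_cast at hj; omega)
    rw [abs_neg]
    linarith
  have hE1 : SB (fun j => sin (π * (a * (β ^ t - 1) * β ^ j)) ^ 2)
      (fun j => 2 * j ≤ -((T + t : ℕ) : ℤ)) (E + 40 * G β + 128 * ζ ^ 2 * t) := by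
    have h1 := (h.alg.extend hβ hα h.hz h.hE t).comp (g := fun j => j + t)
      (Q := fun j => 2 * j ≤ -((T + t : ℕ) : ℤ)) (add_left_injective _)
      (fun j hj => by push_cast at hj; omega)
    have h2 := ((geo_left hβ T).smul (c := 8) (by norm_num)).mono
      (Q := fun j => 2 * j ≤ -((T + t : ℕ) : ℤ)) (fun j hj => by push_cast at hj; omega)
      (fun _ _ => le_rfl) le_rfl
    refine (h1.add h2).mono (fun _ h => h) (fun j _ => ?_) (by linarith)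
    rw [e]
    have h3 := abs_sin_pi_add_le (a * β ^ (j + t)) (-(a * β ^ j))
    have h4 := h.alg.abs_le hβ j
    have h5 := sin_sq_le_of_abs_le (by positivity) h3
    rw [abs_neg] at h5
    linarith
  refine ⟨halg, hz', fun j => ?_, ?_⟩
  · by_cases hj : 2 * j ≤ -((T + t : ℕ) : ℤ)
    · have := hcos1 j hj
      have : 0 ≤ ζ * ε := by positivity
      linarith
    · have h1 := hcos1 (-((T + t : ℕ) : ℤ) - j) (by omega)
      have h2 := halg.reflect_cos hα hz' j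
      linarith
  · have h1 := hE1.comp (g := fun j => -((T + t : ℕ) : ℤ) - j)
      (Q := fun j => ¬ (2 * j ≤ -((T + t : ℕ) : ℤ)) ∧ j < 0) (sub_right_injective)
      (fun j hj => by omega)
    have h2 := (SB.const (c := 16 * (ζ * ε)) (by positivity) (-((T + t : ℕ) : ℤ)) (T + t)).mono
      (Q := fun j => ¬ (2 * j ≤ -((T + t : ℕ) : ℤ)) ∧ j < 0) (fun j hj => by omega)
      (fun _ _ => le_rfl) le_rfl
    have h3 : SB (fun j => sin (π * (a * (β ^ t - 1) * β ^ j)) ^ 2)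
        (fun j => ¬ (2 * j ≤ -((T + t : ℕ) : ℤ)) ∧ j < 0) _ :=
      (h1.add h2).mono (fun _ h => h) (fun j _ => by
        have h4 := sin_sq_le_of_abs_le (by positivity) (halg.reflect_sin hα hz' j)
        linarith) le_rfl
    exact (hE1.union h3 (fun j h1 h2 => ⟨h2, h1⟩)).mono (fun _ h => h) (fun _ _ => le_rfl)
      (by linarith)

lemma exists_two_le_pow (hβ : 1 < β) : ∃ s₀ : ℕ, ∀ s, s₀ ≤ s → 2 ≤ β ^ s := by
  obtain ⟨n, hn⟩ := pow_unbounded_of_one_lt 2 hβ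
  exact ⟨n, fun s hs => hn.le.trans (pow_le_pow_right₀ hβ.le hs)⟩

/-- the first state: some positive lower bound for all the cosines. -/
lemma exists_first_state (hβ : 1 < β) (hα : ‖α‖ = 1)
    (htr : ∀ j : ℤ, ∃ n : ℤ, β ^ j + β ^ (-j) + 2 * (α ^ j).re = n)
    (hi : IsIntegral ℤ β) (hi' : IsIntegral ℤ β⁻¹) :
    ∃ (T : ℕ) (a σ : ℝ) (z : ℂ) (δ E : ℝ), 0 < δ ∧ St β α T a σ z 1 δ E := by
  have h0 : AlgSt β α 0 1 1 1 := ⟨le_rfl, by simp, Or.inl rfl, fun j => by simpa using htr j⟩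
  obtain ⟨s₀, hs₀⟩ := exists_two_le_pow hβ
  obtain ⟨t₀, ht0, -, ht₀⟩ := dirichlet_circle hα (N := 256 * (s₀ + 1)) (by positivity)
  set t := (s₀ + 1) * t₀ with ht
  have ht1 : ‖α ^ t - 1‖ ≤ 1 / 32 := by
    refine (norm_pow_mul_sub_one_le hα t₀ (s₀ + 1)).trans ?_
    refine (mul_le_mul_of_nonneg_left ht₀ (by positivity)).trans (le_of_eq ?_)
    push_cast; field_simp; norm_num
  have h1 := h0.step hβ hα (hs₀ t (by nlinarith))
  have hz : ‖(1 : ℂ) * (α ^ t - 1)‖ ≤ 1 / 32 := by simpa using ht1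
  have hint : ∀ j : ℤ, IsIntegral ℤ (1 * (β ^ t - 1) * β ^ j) := by
    intro j
    refine (isIntegral_one.mul ((hi.pow t).sub isIntegral_one)).mul ?_
    obtain ⟨n, rfl | rfl⟩ := Int.eq_nat_or_neg j
    · rw [zpow_natCast]; exact hi.pow n
    · rw [zpow_neg, zpow_natCast, ← inv_pow]; exact hi'.pow n
  generalize 1 * (β ^ t - 1) = a at h1 hint
  generalize 0 + t = T at h1
  generalize (1 : ℂ) * (α ^ t - 1) = z at h1 hz
  have hG := one_le_G hβ
  obtain ⟨s, hs⟩ := exists_nat_ge (16 * G β)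
  have hs' : β ^ (-(s : ℤ)) ≤ 1 / 16 := by
    refine (zpow_neg_le_of_le hβ (by positivity) hs).trans (le_of_eq ?_)
    field_simp
  have hleft : ∀ j : ℤ, j + T ≤ -(s : ℤ) → 3 / 4 ≤ |cos (π * (a * β ^ j))| := by
    intro j hj
    have h2 := abs_cos_pi_ge (a * β ^ j)
    have h3 := h1.abs_le hβ j
    have h4 : β ^ (j + T) ≤ β ^ (-(s : ℤ)) := zpow_le_zpow_right₀ hβ.le hj
    linarith
  have hright : ∀ j : ℤ, (s : ℤ) ≤ j → 1 / 2 ≤ |cos (π * (a * β ^ j))| := by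
    intro j hj
    have h2 := h1.reflect_cos hα hz j
    have h3 := hleft (-(T : ℤ) - j) (by omega)
    linarith
  obtain ⟨j₀, -, hj₀⟩ := (Finset.Icc (-(T : ℤ) - s) s).exists_min_image
    (fun j => |cos (π * (a * β ^ j))|) ⟨0, by simp⟩
  have hpos : 0 < |cos (π * (a * β ^ j₀))| := abs_pos.2 (cos_ne_zero_of_isIntegral (hint j₀))
  refine ⟨T, a, -1, z, min (1 / 2) |cos (π * (a * β ^ j₀))|, 8 * G β + T + 8 * (1 / 32) * (0 : ℕ),
    lt_min (by norm_num) hpos, h1, hz.trans (by norm_num), fun j => ?_, ?_⟩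
  · by_cases c1 : j + T ≤ -(s : ℤ)
    · exact (min_le_left _ _).trans (le_trans (by norm_num) (hleft j c1))
    by_cases c2 : (s : ℤ) ≤ j
    · exact (min_le_left _ _).trans (hright j c2)
    exact (min_le_right _ _).trans (hj₀ j (Finset.mem_Icc.2 ⟨by omega, by omega⟩))
  · refine (h1.l1 hβ hα hz 0).mono (fun j hj => by simpa using hj) (fun j _ => ?_) le_rfl
    rw [← sq_abs]
    have := abs_sin_le_one (π * (a * β ^ j))
    have := abs_nonneg (sin (π * (a * β ^ j)))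
    nlinarith

end Crest.Agent.R104
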