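import Mathlib

/-!
Bookkeeping tools: bounds for sums over finite subsets of `ℤ`, trigonometric inequalities,
Dirichlet approximation on the unit circle.
-/

set_option autoImplicit false

namespace Crest.Agent.R104

open Real Finset

/-- every finite sum of `f` over indices satisfying `P` is at most `E`. -/
def SB (f : ℤ → ℝ) (P : ℤ → Prop) (E : ℝ) : Prop :=
  ∀ s : Finset ℤ, (∀ j ∈ s, P j) → ∑ j ∈ s, f j ≤ E

lemma SB.comp {f : ℤ → ℝ} {P Q : ℤ → Prop} {E : ℝ} (h : SB f P E) {g : ℤ → ℤ}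
    (hg : Function.Injective g) (hQ : ∀ j, Q j → P (g j)) : SB (fun j => f (g j)) Q E := by
  intro s hs
  rw [← Finset.sum_image (f := f) (g := g) (fun x _ y _ h => hg h)]
  refine h _ fun j hj => ?_
  obtain ⟨i, hi, rfl⟩ := Finset.mem_image.1 hj
  exact hQ i (hs i hi)

lemma SB.mono {f f' : ℤ → ℝ} {P Q : ℤ → Prop} {E E' : ℝ} (h : SB f P E)
    (hQ : ∀ j, Q j → P j) (hf : ∀ j, Q j → f' j ≤ f j) (hE : E ≤ E') : SB f' Q E' := by
  intro s hs
  exact (Finset.sum_le_sum fun j hj => hf j (hs j hj)).trans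
    ((h s fun j hj => hQ j (hs j hj)).trans hE)

lemma SB.add {f g : ℤ → ℝ} {P : ℤ → Prop} {E E' : ℝ} (h : SB f P E) (h' : SB g P E') :
    SB (fun j => f j + g j) P (E + E') := by
  intro s hs
  rw [Finset.sum_add_distrib]
  exact add_le_add (h s hs) (h' s hs)

lemma SB.smul {f : ℤ → ℝ} {P : ℤ → Prop} {E : ℝ} (h : SB f P E) {c : ℝ} (hc : 0 ≤ c) :
    SB (fun j => c * f j) P (c * E) := by
  intro s hs
  rw [← Finset.mul_sum]
  exact mul_le_mul_of_nonneg_left (h s hs) hc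

lemma SB.union {f : ℤ → ℝ} {P Q R : ℤ → Prop} {E E' : ℝ} (h : SB f P E) (h' : SB f Q E')
    (hR : ∀ j, R j → ¬ P j → Q j) : SB f R (E + E') := by
  classical
  intro s hs
  rw [← Finset.sum_filter_add_sum_filter_not s P]
  refine add_le_add (h _ fun j hj => (Finset.mem_filter.1 hj).2) (h' _ fun j hj => ?_)
  exact hR j (hs j (Finset.mem_filter.1 hj).1) (Finset.mem_filter.1 hj).2

lemma SB.const {c : ℝ} (hc : 0 ≤ c) (a : ℤ) (J : ℕ) :
    SB (fun _ => c) (fun j => a ≤ j ∧ j < a + J) (c * J) := by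
  intro s hs
  have : s ⊆ Finset.Ico a (a + J) := fun j hj => Finset.mem_Ico.2 (hs j hj)
  have h2 := Finset.card_le_card this
  simp only [Int.card_Ico, add_sub_cancel_left, Int.toNat_natCast] at h2
  rw [Finset.sum_const, nsmul_eq_mul, mul_comm]
  exact mul_le_mul_of_nonneg_left (by exact_mod_cast h2) hc

/-- the constant `β / (β - 1)`. -/
noncomputable def G (β : ℝ) : ℝ := (1 - β⁻¹)⁻¹

lemma G_eq {β : ℝ} (hβ : 1 < β) : G β = β / (β - 1) := by
  have : β ≠ 0 := by positivity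
  have : β - 1 ≠ 0 := by linarith
  unfold G; field_simp

lemma one_le_G {β : ℝ} (hβ : 1 < β) : 1 ≤ G β := by
  rw [G_eq hβ, le_div_iff₀ (by linarith)]; linarith

lemma inv_le_G {β : ℝ} (hβ : 1 < β) : (β - 1)⁻¹ ≤ G β := by
  rw [G_eq hβ, inv_eq_one_div]
  exact div_le_div_of_nonneg_right hβ.le (by linarith)

lemma SB.geo {β : ℝ} (hβ : 1 < β) : SB (fun j => β ^ j) (fun j => j ≤ 0) (G β) := by
  intro s hs
  have h0 : 0 ≤ β⁻¹ := by positivity
  have h1 : β⁻¹ < 1 := inv_lt_one_of_one_lt₀ hβ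
  have e : ∑ j ∈ s, β ^ j = ∑ n ∈ s.image (fun j => (-j).toNat), β⁻¹ ^ n := by
    rw [Finset.sum_image]
    · refine Finset.sum_congr rfl fun j hj => ?_
      have := hs j hj
      rw [inv_pow, ← zpow_natCast, ← zpow_neg]
      congr 1; omega
    · intro x hx y hy h
      have := hs x hx
      have := hs y hy
      simp only at h
      omega
  rw [e, G, ← tsum_geometric_of_lt_one h0 h1]
  exact (summable_geometric_of_lt_one h0 h1).sum_le_tsum _ (fun _ _ => by positivity)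

lemma abs_sin_pi_int_sub (n : ℤ) (u : ℝ) : |sin (π * (n - u))| = |sin (π * u)| := by
  have : π * (n - u) = n * π - π * u := by ring
  rw [this, Real.sin_int_mul_pi_sub, abs_neg, abs_mul]
  simp

lemma abs_cos_pi_int_sub (n : ℤ) (u : ℝ) : |cos (π * (n - u))| = |cos (π * u)| := by
  have : π * (n - u) = n * π - π * u := by ring
  rw [this, Real.cos_int_mul_pi_sub, abs_mul]
  simp

lemma abs_sin_pi_add_le (u r : ℝ) : |sin (π * (u + r))| ≤ |sin (π * u)| + 4 * |r| := by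
  have h1 := Real.abs_sin_sub_sin_le (π * (u + r)) (π * u)
  have h2 : |π * (u + r) - π * u| ≤ 4 * |r| := by
    have : π * (u + r) - π * u = π * r := by ring
    rw [this, abs_mul, abs_of_pos pi_pos]
    exact mul_le_mul_of_nonneg_right pi_le_four (abs_nonneg _)
  have h3 := abs_sub_abs_le_abs_sub (sin (π * (u + r))) (sin (π * u))
  linarith

lemma abs_cos_pi_add_ge (u r : ℝ) : |cos (π * u)| - 4 * |r| ≤ |cos (π * (u + r))| := by
  have h1 := Real.abs_cos_sub_cos_le (π * u) (π * (u + r))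
  have h2 : |π * u - π * (u + r)| ≤ 4 * |r| := by
    have : π * u - π * (u + r) = -(π * r) := by ring
    rw [this, abs_neg, abs_mul, abs_of_pos pi_pos]
    exact mul_le_mul_of_nonneg_right pi_le_four (abs_nonneg _)
  have h3 := abs_sub_abs_le_abs_sub (cos (π * u)) (cos (π * (u + r)))
  linarith

lemma abs_sin_pi_le (r : ℝ) : |sin (π * r)| ≤ 4 * |r| := by
  simpa using abs_sin_pi_add_le 0 r

lemma abs_cos_pi_ge (r : ℝ) : 1 - 4 * |r| ≤ |cos (π * r)| := by
  simpa using abs_cos_pi_add_ge 0 r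

lemma sin_sq_le_of_abs_le {x y e : ℝ} (he : 0 ≤ e) (h : |sin x| ≤ |sin y| + e) :
    sin x ^ 2 ≤ sin y ^ 2 + 2 * e := by
  rw [← sq_abs (sin x), ← sq_abs (sin y)]
  have h1 := abs_sin_le_one x
  have h2 := abs_sin_le_one y
  have h3 := abs_nonneg (sin x)
  have h4 := abs_nonneg (sin y)
  nlinarith

lemma exp_le_cos_sq {x δ : ℝ} (hδ : 0 < δ) (h : δ ≤ |cos x|) :
    exp (-(sin x ^ 2 / δ ^ 2)) ≤ cos x ^ 2 := by
  have h1 : δ ^ 2 ≤ cos x ^ 2 := by
    rw [← sq_abs (cos x)]; exact pow_le_pow_left₀ hδ.le h 2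
  have hc : 0 < cos x ^ 2 := lt_of_lt_of_le (by positivity) h1
  have h2 : sin x ^ 2 / cos x ^ 2 ≤ sin x ^ 2 / δ ^ 2 :=
    div_le_div_of_nonneg_left (sq_nonneg _) (by positivity) h1
  have h3 := Real.add_one_le_exp (sin x ^ 2 / δ ^ 2)
  have h4 : sin x ^ 2 / cos x ^ 2 + 1 = (cos x ^ 2)⁻¹ := by
    rw [div_add_one hc.ne', Real.sin_sq_add_cos_sq, one_div]
  rw [Real.exp_neg, inv_le_comm₀ (Real.exp_pos _) hc]
  linarith

lemma norm_pow_mul_sub_one_le {α : ℂ} (hα : ‖α‖ = 1) (t m : ℕ) :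
    ‖α ^ (m * t) - 1‖ ≤ m * ‖α ^ t - 1‖ := by
  induction m with
  | zero => simp
  | succ m ih =>
    have : α ^ ((m + 1) * t) - 1 = α ^ t * (α ^ (m * t) - 1) + (α ^ t - 1) := by ring
    rw [this]
    refine (norm_add_le _ _).trans ?_
    rw [norm_mul, norm_pow, hα, one_pow]
    push_cast
    linarith

lemma dirichlet_circle {α : ℂ} (hα : ‖α‖ = 1) {N : ℕ} (hN : 0 < N) :
    ∃ t : ℕ, 0 < t ∧ t ≤ N ∧ ‖α ^ t - 1‖ ≤ 8 / N := by
  obtain ⟨t, h0, h1, h2⟩ := Real.exists_nat_abs_mul_sub_round_le (α.arg / (2 * π)) hN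
  refine ⟨t, h0, h1, ?_⟩
  set ξ := α.arg / (2 * π) with hξ
  have e : α ^ t = Complex.exp (Complex.I * ((2 * π * (t * ξ - round (t * ξ)) : ℝ) : ℂ)) := by
    have e1 : α = Complex.exp (α.arg * Complex.I) := by
      conv_lhs => rw [← Complex.norm_mul_exp_arg_mul_I α, hα]
      simp
    have e2 : (Complex.I * ((2 * π * (t * ξ - round (t * ξ)) : ℝ) : ℂ)) =
        t * (α.arg * Complex.I) - (round (t * ξ) : ℤ) * (2 * π * Complex.I) := by
      have : (π : ℂ) ≠ 0 := by exact_mod_cast pi_pos.ne'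
      have e3 : (α.arg : ℂ) = 2 * π * ξ := by
        rw [hξ]; push_cast; field_simp
      rw [e3]; push_cast; ring
    rw [e2, Complex.exp_sub, Complex.exp_int_mul_two_pi_mul_I, div_one, Complex.exp_nat_mul,
      ← e1]
  rw [e]
  refine Real.norm_exp_I_mul_ofReal_sub_one_le.trans ?_
  rw [Real.norm_eq_abs, abs_mul, abs_of_pos (by positivity : 0 < 2 * π)]
  have hN' : (0 : ℝ) < N := by exact_mod_cast hN
  have h3 : (1 : ℝ) / (N + 1) ≤ 1 / N := one_div_le_one_div_of_le hN' (by linarith)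
  calc 2 * π * |t * ξ - round (t * ξ)| ≤ 8 * (1 / N) :=
        mul_le_mul (by linarith [pi_le_four]) (h2.trans h3) (abs_nonneg _) (by norm_num)
    _ = 8 / N := by ring

lemma zpow_neg_le_of_le {β M : ℝ} (hβ : 1 < β) (hM : 0 < M) {s : ℕ} (hs : M ≤ s) :
    β ^ (-(s : ℤ)) ≤ G β / M := by
  have h1 : 1 + (s : ℝ) * (β - 1) ≤ β ^ s := by
    have := one_add_mul_le_pow (a := β - 1) (by linarith) s
    simpa using this
  have h2 : M * (β - 1) ≤ β ^ s := by nlinarith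
  rw [zpow_neg, zpow_natCast]
  have h3 : 0 < M * (β - 1) := by nlinarith
  calc (β ^ s)⁻¹ ≤ (M * (β - 1))⁻¹ := inv_anti₀ h3 h2
    _ = (β - 1)⁻¹ / M := by rw [mul_inv]; ring
    _ ≤ G β / M := div_le_div_of_nonneg_right (inv_le_G hβ) hM.le

end Crest.Agent.R104
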